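import Vale.Agent.P129.Defs

/-!
# P129, row AU: asymptotically unital sequences of operators
-/

namespace Vale.Agent.P129.AU

open Filter Topology Set

variable {𝕜 X : Type*} [RCLike 𝕜] [NormedAddCommGroup X] [NormedSpace 𝕜 X]

theorem main (T : ℕ → X →L[𝕜] X) (h1 : ∀ x, Tendsto (fun n => T n x) atTop (𝓝 x))
    (h2 : ∀ m, Tendsto (fun n => T n * T m) atTop (𝓝 (T m)))
    (hnot : ¬ Tendsto T atTop (𝓝 1)) :
    ∃ S : ℕ → X →L[𝕜] X, Dense {x : X | ∃ K : ℝ, ∀ i, ‖S i x‖ ≤ K} ∧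
      ¬ ∃ K : ℝ, ∀ i, ‖S i‖ ≤ K := by
  have h3 : ∃ ε : ℝ, 0 < ε ∧ ∃ᶠ n in atTop, ε ≤ ‖T n - 1‖ := by
    by_contra hcon
    push Not at hcon
    apply hnot
    rw [Metric.tendsto_nhds]
    intro ε hε
    refine (hcon ε hε).mono fun n hn => ?_
    rwa [dist_eq_norm]
  obtain ⟨ε, hε, hfr⟩ := h3
  have h4 : ∀ k : ℕ, ∃ n, ε ≤ ‖T n - 1‖ ∧ ∀ m ∈ Finset.range (k + 1),
      ‖T n * T m - T m‖ ≤ 1 / ((k : ℝ) + 1) := by
    intro k
    have h5 : ∀ᶠ n in atTop, ∀ m ∈ Finset.range (k + 1),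
        ‖T n * T m - T m‖ ≤ 1 / ((k : ℝ) + 1) := by
      rw [Filter.eventually_all_finset]
      intro m _
      have h6 := tendsto_iff_norm_sub_tendsto_zero.1 (h2 m)
      exact (h6.eventually (gt_mem_nhds (by positivity : (0 : ℝ) < 1 / ((k : ℝ) + 1)))).mono
        fun n hn => hn.le
    exact (hfr.and_eventually h5).exists
  choose n hn1 hn2 using h4
  refine ⟨fun k => ((k : 𝕜) + 1) • (T (n k) - 1), ?_, ?_⟩
  · have hk : ∀ k : ℕ, ‖((k : 𝕜) + 1)‖ = (k : ℝ) + 1 := by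
      intro k
      have : ((k : 𝕜) + 1) = ((k + 1 : ℕ) : 𝕜) := by push_cast; rfl
      rw [this, RCLike.norm_natCast]
      push_cast
      rfl
    have hmem : ∀ m y, T m y ∈
        {x : X | ∃ K : ℝ, ∀ i : ℕ, ‖(((i : 𝕜) + 1) • (T (n i) - 1)) x‖ ≤ K} := by
      intro m y
      refine ⟨‖y‖ + ∑ i ∈ Finset.range m, ‖(((i : 𝕜) + 1) • (T (n i) - 1)) (T m y)‖, fun i => ?_⟩
      by_cases hi : m ≤ i
      · have h5 : ‖(((i : 𝕜) + 1) • (T (n i) - 1)) (T m y)‖ ≤ ‖y‖ := by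
          have h6 : (((i : 𝕜) + 1) • (T (n i) - 1)) (T m y) =
              ((i : 𝕜) + 1) • (T (n i) * T m - T m) y := rfl
          rw [h6, norm_smul, hk]
          have h7 := (T (n i) * T m - T m).le_opNorm y
          have h8 := hn2 i m (Finset.mem_range.2 (by omega))
          have h9 : (0 : ℝ) < (i : ℝ) + 1 := by positivity
          calc ((i : ℝ) + 1) * ‖(T (n i) * T m - T m) y‖
              ≤ ((i : ℝ) + 1) * (1 / ((i : ℝ) + 1) * ‖y‖) := by
                refine mul_le_mul_of_nonneg_left (h7.trans ?_) h9.le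
                exact mul_le_mul_of_nonneg_right h8 (norm_nonneg y)
            _ = ‖y‖ := by field_simp
        have h10 : 0 ≤ ∑ i ∈ Finset.range m, ‖(((i : 𝕜) + 1) • (T (n i) - 1)) (T m y)‖ :=
          Finset.sum_nonneg fun _ _ => norm_nonneg _
        linarith
      · have h5 := Finset.single_le_sum
          (f := fun i : ℕ => ‖(((i : 𝕜) + 1) • (T (n i) - 1)) (T m y)‖)
          (fun _ _ => norm_nonneg _) (Finset.mem_range.2 (not_le.1 hi))
        have h6 := norm_nonneg y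
        have h7 : ‖(((i : 𝕜) + 1) • (T (n i) - 1)) (T m y)‖ ≤
            ∑ i ∈ Finset.range m, ‖(((i : 𝕜) + 1) • (T (n i) - 1)) (T m y)‖ := h5
        linarith
    intro x
    exact mem_closure_of_tendsto (h1 x) (Eventually.of_forall fun m => hmem m x)
  · rintro ⟨K, hK⟩
    obtain ⟨k, hk⟩ := exists_nat_gt (K / ε)
    have h5 := hK k
    have h6 : ‖((k : 𝕜) + 1)‖ = (k : ℝ) + 1 := by
      have : ((k : 𝕜) + 1) = ((k + 1 : ℕ) : 𝕜) := by push_cast; rfl
      rw [this, RCLike.norm_natCast]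
      push_cast
      rfl
    rw [norm_smul, h6] at h5
    rw [div_lt_iff₀ hε] at hk
    have h7 : (k : ℝ) * ε ≤ ((k : ℝ) + 1) * ‖T (n k) - 1‖ := by
      have h8 := hn1 k
      have h9 : (0 : ℝ) ≤ k := Nat.cast_nonneg k
      nlinarith
    linarith

end Vale.Agent.P129.AU
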