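import Vale.Agent.P129.Defs

namespace Vale.Agent.P129

open Filter Topology Set

variable {𝕜 X : Type*} [RCLike 𝕜] [NormedAddCommGroup X] [NormedSpace 𝕜 X]

/-- row AU: asymptotically unital sequences of operators (from `fam`). -/
theorem asymptoticUnit_of
    (fam : ∀ S : ℕ → X →L[𝕜] X, Dense {x : X | ∃ K : ℝ, ∀ i, ‖S i x‖ ≤ K} →
      (¬ ∃ K : ℝ, ∀ i, ‖S i‖ ≤ K) → HasSepQuot 𝕜 X)
    (T : ℕ → X →L[𝕜] X) (h1 : ∀ x, Tendsto (fun n => T n x) atTop (𝓝 x))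
    (h2 : ∀ m, Tendsto (fun n => T n * T m) atTop (𝓝 (T m)))
    (hnot : ¬ Tendsto T atTop (𝓝 1)) : HasSepQuot 𝕜 X := by
  rw [Metric.tendsto_atTop] at hnot
  push Not at hnot
  obtain ⟨ε, hε, hfreq⟩ := hnot
  have hk : ∀ k : ℕ, ∃ n : ℕ, ε ≤ ‖T n - 1‖ ∧ ∀ m ≤ k, ‖(T n - 1) * T m‖ ≤ 1 / ((k : ℝ) + 1) := by
    intro k
    have hpos : 0 < 1 / ((k : ℝ) + 1) := by positivity
    have h3 : ∀ᶠ n in atTop, ∀ m ∈ Finset.range (k + 1), dist (T n * T m) (T m) < 1 / ((k : ℝ) + 1) := by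
      rw [Filter.eventually_all_finset]
      intro m _
      exact (Metric.tendsto_nhds.mp (h2 m)) _ hpos
    obtain ⟨N, hN⟩ := eventually_atTop.mp h3
    obtain ⟨n, hn, hn'⟩ := hfreq N
    refine ⟨n, by rwa [← dist_eq_norm], fun m hm => ?_⟩
    have h4 := hN n hn m (Finset.mem_range.mpr (by omega))
    rw [dist_eq_norm] at h4
    rw [sub_mul, one_mul]
    exact h4.le
  choose ν hν1 hν2 using hk
  have hnorm : ∀ k : ℕ, ‖(((k : ℝ) + 1 : ℝ) : 𝕜)‖ = (k : ℝ) + 1 := by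
    intro k
    rw [RCLike.norm_ofReal, abs_of_pos (by positivity)]
  refine fam (fun k => (((k : ℝ) + 1 : ℝ) : 𝕜) • (T (ν k) - 1)) ?_ ?_
  · rw [Metric.dense_iff]
    intro y r hr
    obtain ⟨m, hm⟩ := ((Metric.tendsto_nhds.mp (h1 y)) r hr).exists
    refine ⟨T m y, hm, ?_⟩
    -- bound
    have hb : ∀ k : ℕ, m ≤ k → ‖((((k : ℝ) + 1 : ℝ) : 𝕜) • (T (ν k) - 1)) (T m y)‖ ≤ ‖y‖ := by
      intro k hk
      have h5 : ((((k : ℝ) + 1 : ℝ) : 𝕜) • (T (ν k) - 1)) (T m y)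
          = (((k : ℝ) + 1 : ℝ) : 𝕜) • (((T (ν k) - 1) * T m) y) := rfl
      rw [h5, norm_smul, hnorm]
      have h6 : ‖((T (ν k) - 1) * T m) y‖ ≤ 1 / ((k : ℝ) + 1) * ‖y‖ :=
        ((((T (ν k) - 1) * T m)).le_opNorm y).trans
          (mul_le_mul_of_nonneg_right (hν2 k m hk) (norm_nonneg _))
      calc ((k : ℝ) + 1) * ‖((T (ν k) - 1) * T m) y‖
          ≤ ((k : ℝ) + 1) * (1 / ((k : ℝ) + 1) * ‖y‖) := by gcongr
        _ = ‖y‖ := by field_simp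
    refine ⟨‖y‖ + ∑ k ∈ Finset.range m, ‖((((k : ℝ) + 1 : ℝ) : 𝕜) • (T (ν k) - 1)) (T m y)‖,
      fun k => ?_⟩
    rcases le_or_gt m k with h | h
    · exact (hb k h).trans (le_add_of_nonneg_right (Finset.sum_nonneg fun _ _ => norm_nonneg _))
    · have h7 : ‖((((k : ℝ) + 1 : ℝ) : 𝕜) • (T (ν k) - 1)) (T m y)‖ ≤
          ∑ k ∈ Finset.range m, ‖((((k : ℝ) + 1 : ℝ) : 𝕜) • (T (ν k) - 1)) (T m y)‖ :=
        Finset.single_le_sum
          (f := fun k : ℕ => ‖((((k : ℝ) + 1 : ℝ) : 𝕜) • (T (ν k) - 1)) (T m y)‖)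
          (fun _ _ => norm_nonneg _) (Finset.mem_range.mpr h)
      exact h7.trans (le_add_of_nonneg_left (norm_nonneg _))
  · rintro ⟨K, hK⟩
    obtain ⟨k, hk⟩ := exists_nat_gt (K / ε)
    have h8 := hK k
    rw [norm_smul, hnorm] at h8
    rw [div_lt_iff₀ hε] at hk
    have h9 := hν1 k
    have h10 : (0 : ℝ) ≤ k := Nat.cast_nonneg k
    nlinarith

/-- row BA: Banach algebras with a sequential left approximate identity and no left identity
(from `fam`). -/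
theorem algebra_of {A : Type*} [NonUnitalNormedRing A] [NormedSpace 𝕜 A] [IsScalarTower 𝕜 A A]
    [SMulCommClass 𝕜 A A] [CompleteSpace A]
    (fam : ∀ S : ℕ → A →L[𝕜] A, Dense {x : A | ∃ K : ℝ, ∀ i, ‖S i x‖ ≤ K} →
      (¬ ∃ K : ℝ, ∀ i, ‖S i‖ ≤ K) → HasSepQuot 𝕜 A)
    (e : ℕ → A) (he : ∀ a, Tendsto (fun n => e n * a) atTop (𝓝 a))
    (hno : ¬ ∃ u : A, ∀ a, u * a = a) : HasSepQuot 𝕜 A := by
  refine asymptoticUnit_of fam (fun n => ContinuousLinearMap.mul 𝕜 A (e n)) (fun a => ?_)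
    (fun m => ?_) (fun hT => hno ?_)
  · simpa using he a
  · have h1 : ∀ n, (ContinuousLinearMap.mul 𝕜 A (e n)) * (ContinuousLinearMap.mul 𝕜 A (e m))
        = ContinuousLinearMap.mul 𝕜 A (e n * e m) := by
      intro n
      ext a
      simp [mul_assoc]
    simp only [h1]
    exact ((ContinuousLinearMap.mul 𝕜 A).continuous.tendsto (e m)).comp (he (e m))
  · obtain ⟨n, hn⟩ := ((Metric.tendsto_nhds.mp hT) 1 one_pos).exists
    rw [dist_eq_norm] at hn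
    have hunit : IsUnit (ContinuousLinearMap.mul 𝕜 A (e n)) := by
      have h2 : ‖1 - ContinuousLinearMap.mul 𝕜 A (e n)‖ < 1 := by rwa [norm_sub_rev]
      have h3 := (Units.oneSub _ h2).isUnit
      rw [Units.val_oneSub, sub_sub_cancel] at h3
      exact h3
    obtain ⟨U, hU⟩ := hunit
    have hinj : ∀ b : A, e n * b = 0 → b = 0 := by
      intro b hb
      have h4 : (U.val : A →L[𝕜] A) b = 0 := by
        rw [hU]
        simpa using hb
      have h5 : ((U⁻¹ : (A →L[𝕜] A)ˣ).val * U.val) b = 0 := by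
        rw [mul_apply_eq_comp, h4, map_zero]
      rw [Units.inv_mul] at h5
      simpa using h5
    refine ⟨(U⁻¹ : (A →L[𝕜] A)ˣ).val (e n), fun a => ?_⟩
    have h6 : e n * (U⁻¹ : (A →L[𝕜] A)ˣ).val (e n) = e n := by
      have h7 : (U.val * (U⁻¹ : (A →L[𝕜] A)ˣ).val) (e n) = e n := by
        rw [Units.mul_inv]
        rfl
      rw [mul_apply_eq_comp, hU] at h7
      simpa using h7
    have h8 : e n * ((U⁻¹ : (A →L[𝕜] A)ˣ).val (e n) * a - a) = 0 := by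
      rw [mul_sub, ← mul_assoc, h6, sub_self]
    exact sub_eq_zero.mp (hinj _ h8)

end Vale.Agent.P129
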