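import Vale.Agent.P129.Defs

/-!
P129: almost open operators are onto; the convex set attached to an operator.
-/

namespace Vale.Agent.P129

open Filter Topology Set Metric

variable {𝕜 X Z : Type*} [RCLike 𝕜] [NormedAddCommGroup X] [NormedSpace 𝕜 X]
  [NormedAddCommGroup Z] [NormedSpace 𝕜 Z]

/-- If the closure of the image of the unit ball is a neighbourhood of `0`, the operator is
onto. -/
theorem OR.surjective_of_nhds [CompleteSpace Z] (R : Z →L[𝕜] X)
    (h : closure (R '' closedBall (0 : Z) 1) ∈ 𝓝 (0 : X)) : Function.Surjective R := by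
  obtain ⟨r, hr, hsub⟩ := Metric.nhds_basis_closedBall.mem_iff.1 h
  have key : ∀ (s : ℝ), 0 < s → ∀ y : X, ‖y‖ ≤ r * s →
      ∃ z : Z, ‖z‖ ≤ s ∧ ‖y - R z‖ ≤ r * (s / 2) := by
    intro s hs y hy
    have hs' : ‖((s : ℝ) : 𝕜)‖ = s := by
      rw [RCLike.norm_ofReal, abs_of_pos hs]
    have hs0 : ((s : ℝ) : 𝕜) ≠ 0 := by
      intro h0
      rw [h0, norm_zero] at hs'
      exact hs.ne hs'
    have h1 : ((s : ℝ) : 𝕜)⁻¹ • y ∈ closedBall (0 : X) r := by
      rw [mem_closedBall_zero_iff, norm_smul, norm_inv, hs', inv_mul_le_iff₀ hs, mul_comm]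
      exact hy
    obtain ⟨_, ⟨z, hz, rfl⟩, hd⟩ := Metric.mem_closure_iff.1 (hsub h1) (r / 2) (by positivity)
    refine ⟨((s : ℝ) : 𝕜) • z, ?_, ?_⟩
    · rw [norm_smul, hs']
      have := mem_closedBall_zero_iff.1 hz
      nlinarith
    · have h2 : y - R (((s : ℝ) : 𝕜) • z) = ((s : ℝ) : 𝕜) • (((s : ℝ) : 𝕜)⁻¹ • y - R z) := by
        rw [map_smul, smul_sub, smul_smul, mul_inv_cancel₀ hs0, one_smul]
      rw [h2, norm_smul, hs', ← dist_eq_norm]
      nlinarith
  -- the iteration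
  have main : ∀ y : X, ‖y‖ ≤ r → ∃ z, R z = y := by
    intro y hy
    choose! g hg1 hg2 using key
    let s : ℕ → ℝ := fun n => (1 / 2) ^ n
    have hs : ∀ n, 0 < s n := fun n => by positivity
    let Y : ℕ → X := fun n => Nat.rec y (fun n v => v - R (g (s n) v)) n
    have hY : ∀ n, Y (n + 1) = Y n - R (g (s n) (Y n)) := fun n => rfl
    have hYn : ∀ n, ‖Y n‖ ≤ r * s n := by
      intro n
      induction n with
      | zero => simpa [Y, s] using hy
      | succ n ih =>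
        rw [hY]
        have := hg2 (s n) (hs n) (Y n) ih
        have h3 : s (n + 1) = s n / 2 := by simp only [s]; ring
        rw [h3]
        exact this
    have hsum : Summable fun n => g (s n) (Y n) := by
      refine Summable.of_norm_bounded (g := s) ?_ fun n => hg1 (s n) (hs n) (Y n) (hYn n)
      exact summable_geometric_two
    refine ⟨∑' n, g (s n) (Y n), ?_⟩
    have h4 : Tendsto (fun n => ∑ k ∈ Finset.range n, R (g (s k) (Y k))) atTop
        (𝓝 (R (∑' n, g (s n) (Y n)))) := by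
      have h5 := hsum.hasSum.tendsto_sum_nat
      have h6 := (R.continuous.tendsto _).comp h5
      refine h6.congr fun n => ?_
      simp [map_sum]
    have h7 : ∀ n, ∑ k ∈ Finset.range n, R (g (s k) (Y k)) = y - Y n := by
      intro n
      induction n with
      | zero => simp [Y]
      | succ n ih =>
        rw [Finset.sum_range_succ, ih, hY]
        abel
    have h8 : Tendsto (fun n => y - Y n) atTop (𝓝 (y - 0)) := by
      refine tendsto_const_nhds.sub ?_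
      rw [tendsto_zero_iff_norm_tendsto_zero]
      refine squeeze_zero (fun n => norm_nonneg _) hYn ?_
      have : Tendsto s atTop (𝓝 0) :=
        tendsto_pow_atTop_nhds_zero_of_lt_one (by norm_num) (by norm_num)
      simpa using this.const_mul r
    rw [sub_zero] at h8
    exact tendsto_nhds_unique h4 (h8.congr fun n => (h7 n).symm)
  intro y
  have hc : (0 : ℝ) < 1 + ‖y‖ := by positivity
  have hc' : ‖(((1 + ‖y‖ : ℝ)) : 𝕜)‖ = 1 + ‖y‖ := by
    rw [RCLike.norm_ofReal, abs_of_pos hc]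
  have hr' : ‖((r : ℝ) : 𝕜)‖ = r := by rw [RCLike.norm_ofReal, abs_of_pos hr]
  have hc0 : (((1 + ‖y‖ : ℝ)) : 𝕜) ≠ 0 := by
    intro h0; rw [h0, norm_zero] at hc'; exact hc.ne hc'
  have hr0 : ((r : ℝ) : 𝕜) ≠ 0 := by
    intro h0; rw [h0, norm_zero] at hr'; exact hr.ne hr'
  obtain ⟨z, hz⟩ := main ((((r : ℝ) : 𝕜) * (((1 + ‖y‖ : ℝ)) : 𝕜)⁻¹) • y) (by
    rw [norm_smul, norm_mul, norm_inv, hr', hc']
    rw [mul_assoc, inv_mul_eq_div]
    have : ‖y‖ / (1 + ‖y‖) ≤ 1 := by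
      rw [div_le_one hc]; linarith
    nlinarith)
  refine ⟨((((r : ℝ) : 𝕜) * (((1 + ‖y‖ : ℝ)) : 𝕜)⁻¹)⁻¹) • z, ?_⟩
  rw [map_smul, hz, smul_smul, inv_mul_cancel₀ (mul_ne_zero hr0 (inv_ne_zero hc0)), one_smul]

/-- properties of the closure of the image of the unit ball -/
theorem OR.props [CompleteSpace Z] (R : Z →L[𝕜] X) (hR : DenseRange R)
    (hns : ¬ Function.Surjective R) : ∃ C : Set X, IsClosed C ∧
      (∀ x ∈ C, ∀ y ∈ C, ∀ a b : ℝ, 0 ≤ a → 0 ≤ b → a + b = 1 → (a : 𝕜) • x + (b : 𝕜) • y ∈ C) ∧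
      Balanced 𝕜 C ∧ (0 : X) ∈ C ∧ Dense ((Submodule.span 𝕜 C : Submodule 𝕜 X) : Set X) ∧
      C ∉ 𝓝 (0 : X) := by
  refine ⟨closure (R '' closedBall (0 : Z) 1), isClosed_closure, ?_, ?_, ?_, ?_, ?_⟩
  · intro x hx y hy a b ha hb hab
    refine map_mem_closure₂ (f := fun x y : X => (a : 𝕜) • x + (b : 𝕜) • y) (by fun_prop) hx hy ?_
    rintro _ ⟨u, hu, rfl⟩ _ ⟨v, hv, rfl⟩
    refine ⟨(a : 𝕜) • u + (b : 𝕜) • v, ?_, by simp⟩
    rw [mem_closedBall_zero_iff] at hu hv ⊢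
    calc ‖(a : 𝕜) • u + (b : 𝕜) • v‖ ≤ ‖(a : 𝕜) • u‖ + ‖(b : 𝕜) • v‖ := norm_add_le _ _
      _ = a * ‖u‖ + b * ‖v‖ := by
          rw [norm_smul, norm_smul, RCLike.norm_ofReal, RCLike.norm_ofReal, abs_of_nonneg ha,
            abs_of_nonneg hb]
      _ ≤ 1 := by nlinarith
  · refine Balanced.closure ?_
    intro c hc
    rintro _ ⟨_, ⟨u, hu, rfl⟩, rfl⟩
    refine ⟨c • u, ?_, by simp⟩
    rw [mem_closedBall_zero_iff] at hu ⊢
    rw [norm_smul]
    nlinarith [norm_nonneg u, norm_nonneg c]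
  · exact subset_closure ⟨0, by simp, by simp⟩
  · refine hR.mono ?_
    rintro _ ⟨z, rfl⟩
    have hz : (((1 + ‖z‖ : ℝ)) : 𝕜)⁻¹ • z ∈ closedBall (0 : Z) 1 := by
      rw [mem_closedBall_zero_iff, norm_smul, norm_inv, RCLike.norm_ofReal,
        abs_of_pos (by positivity : (0 : ℝ) < 1 + ‖z‖), inv_mul_eq_div, div_le_one (by positivity)]
      linarith
    have h1 : R ((((1 + ‖z‖ : ℝ)) : 𝕜)⁻¹ • z) ∈
        Submodule.span 𝕜 (closure (R '' closedBall (0 : Z) 1)) :=
      Submodule.subset_span (subset_closure ⟨_, hz, rfl⟩)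
    have h2 := Submodule.smul_mem _ (((1 + ‖z‖ : ℝ)) : 𝕜) h1
    rw [map_smul, smul_smul, mul_inv_cancel₀, one_smul] at h2
    · exact h2
    · intro h0
      have h3 : ‖(((1 + ‖z‖ : ℝ)) : 𝕜)‖ = 1 + ‖z‖ := by
        rw [RCLike.norm_ofReal, abs_of_pos (by positivity)]
      rw [h0, norm_zero] at h3
      have := norm_nonneg z
      linarith
  · exact fun h => hns (OR.surjective_of_nhds R h)

end Vale.Agent.P129
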