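import Vale.Agent.P129.Defs

/-!
P129: hyperinvariant subspaces and the boundary of the spectrum.
-/

namespace Vale.Agent.P129

open Filter Topology Set

variable {X : Type*} [NormedAddCommGroup X] [NormedSpace ℂ X] [CompleteSpace X]

/-- If `l` is a boundary point of the spectrum of `T` and `T - l` has dense range, then there is
an unbounded family of operators that is bounded at the points of a dense set. -/
theorem HY.boundary (T : X →L[ℂ] X) (l : ℂ) (hl : l ∈ frontier (spectrum ℂ T))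
    (hd : Dense (Set.range (T - l • (1 : X →L[ℂ] X)))) :
    ∃ S : {μ : ℂ // μ ∉ spectrum ℂ T} → X →L[ℂ] X,
      Dense {x : X | ∃ K : ℝ, ∀ i, ‖S i x‖ ≤ K} ∧ ¬ ∃ K : ℝ, ∀ i, ‖S i‖ ≤ K := by
  have hmem : l ∈ spectrum ℂ T := (spectrum.isClosed T).frontier_subset hl
  have hcl : l ∈ closure (spectrum ℂ T)ᶜ := by
    rw [frontier_eq_closure_inter_closure] at hl
    exact hl.2
  -- the resolvent
  have hR : ∀ μ : ℂ, μ ∉ spectrum ℂ T → ∃ R : X →L[ℂ] X,
      (μ • (1 : X →L[ℂ] X) - T) * R = 1 ∧ R * (μ • (1 : X →L[ℂ] X) - T) = 1 := by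
    intro μ hμ
    have h1 : IsUnit (algebraMap ℂ (X →L[ℂ] X) μ - T) := by
      by_contra h
      exact hμ h
    obtain ⟨u, hu⟩ := h1
    rw [Algebra.algebraMap_eq_smul_one] at hu
    exact ⟨(u⁻¹ : (X →L[ℂ] X)ˣ), by rw [← hu]; exact u.mul_inv, by rw [← hu]; exact u.inv_mul⟩
  choose! R hR1 hR2 using hR
  let ι := {μ : ℂ // μ ∉ spectrum ℂ T}
  let c : ι → ℝ := fun μ => (1 + ‖μ.1 - l‖ * ‖R μ.1‖)⁻¹
  have hc0 : ∀ μ : ι, 0 < 1 + ‖μ.1 - l‖ * ‖R μ.1‖ := fun μ => by positivity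
  refine ⟨fun μ => ((c μ : ℝ) : ℂ) • R μ.1, ?_, ?_⟩
  · refine hd.mono ?_
    rintro _ ⟨z, rfl⟩
    refine ⟨‖z‖, fun μ => ?_⟩
    have h1 : R μ.1 ((T - l • (1 : X →L[ℂ] X)) z) = (μ.1 - l) • R μ.1 z - z := by
      have h2 : (R μ.1 * (μ.1 • (1 : X →L[ℂ] X) - T)) z = z := by
        rw [hR2 μ.1 μ.2]; rfl
      have h3 : (R μ.1 * (μ.1 • (1 : X →L[ℂ] X) - T)) z = μ.1 • R μ.1 z - R μ.1 (T z) := by
        simp
      have h4 : R μ.1 ((T - l • (1 : X →L[ℂ] X)) z) = R μ.1 (T z) - l • R μ.1 z := by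
        simp
      rw [h3] at h2
      have h5 : R μ.1 (T z) = μ.1 • R μ.1 z - z := by
        rw [eq_sub_iff_add_eq, add_comm]
        exact (sub_eq_iff_eq_add.1 h2).symm
      rw [h4, h5, sub_smul]
      abel
    rw [smul_apply, norm_smul, h1]
    have h5 : ‖(μ.1 - l) • R μ.1 z - z‖ ≤ (1 + ‖μ.1 - l‖ * ‖R μ.1‖) * ‖z‖ := by
      calc ‖(μ.1 - l) • R μ.1 z - z‖ ≤ ‖(μ.1 - l) • R μ.1 z‖ + ‖z‖ := norm_sub_le _ _
        _ ≤ ‖μ.1 - l‖ * (‖R μ.1‖ * ‖z‖) + ‖z‖ := by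
            rw [norm_smul]
            gcongr
            exact (R μ.1).le_opNorm z
        _ = _ := by ring
    have h6 : ‖((c μ : ℝ) : ℂ)‖ = c μ := by
      rw [Complex.norm_real, Real.norm_of_nonneg (inv_nonneg.2 (hc0 μ).le)]
    rw [h6]
    calc c μ * ‖(μ.1 - l) • R μ.1 z - z‖ ≤ c μ * ((1 + ‖μ.1 - l‖ * ‖R μ.1‖) * ‖z‖) :=
          mul_le_mul_of_nonneg_left h5 (inv_nonneg.2 (hc0 μ).le)
      _ = ‖z‖ := by
          rw [← mul_assoc, inv_mul_cancel₀ (hc0 μ).ne', one_mul]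
  · rintro ⟨K, hK⟩
    obtain ⟨μ, hμ, hμl⟩ := Metric.mem_closure_iff.1 hcl (1 / (2 * (|K| + 1))) (by positivity)
    rw [dist_eq_norm, ← norm_neg, neg_sub] at hμl
    have hk := hK ⟨μ, hμ⟩
    have hne : μ ≠ l := fun h => hμ (h ▸ hmem)
    have hpos : 0 < ‖μ - l‖ := norm_pos_iff.2 (sub_ne_zero.2 hne)
    have h1 : 1 ≤ ‖μ - l‖ * ‖R μ‖ := by
      by_contra hlt
      push Not at hlt
      have h2 : ‖(μ - l) • R μ‖ < 1 := by rw [norm_smul]; exact hlt
      have h3 : IsUnit (1 - (μ - l) • R μ) := isUnit_one_sub_of_norm_lt_one h2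
      have h4 : IsUnit (μ • (1 : X →L[ℂ] X) - T) := by
        by_contra h
        apply hμ
        rw [spectrum.mem_iff, Algebra.algebraMap_eq_smul_one]
        exact h
      have h5 : (μ • (1 : X →L[ℂ] X) - T) * (1 - (μ - l) • R μ) = l • (1 : X →L[ℂ] X) - T := by
        rw [mul_sub, mul_one, mul_smul_comm, hR1 μ hμ, sub_smul]
        abel
      have h6 := h4.mul h3
      rw [h5, ← Algebra.algebraMap_eq_smul_one] at h6
      exact hmem h6
    have h7 : ‖((c ⟨μ, hμ⟩ : ℝ) : ℂ) • R μ‖ = ‖R μ‖ / (1 + ‖μ - l‖ * ‖R μ‖) := by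
      rw [norm_smul, Complex.norm_real, Real.norm_of_nonneg (inv_nonneg.2 (hc0 ⟨μ, hμ⟩).le)]
      rw [inv_mul_eq_div]
    have hk' : ‖R μ‖ / (1 + ‖μ - l‖ * ‖R μ‖) ≤ K := by rw [← h7]; exact hk
    rw [div_le_iff₀ (hc0 ⟨μ, hμ⟩)] at hk'
    have hR0 : 0 < ‖R μ‖ := by
      by_contra h
      have : ‖R μ‖ = 0 := le_antisymm (not_lt.1 h) (norm_nonneg _)
      rw [this, mul_zero] at h1
      linarith
    have hK0 : 0 ≤ |K| := abs_nonneg K
    have h8 : ‖R μ‖ ≤ |K| * (2 * (‖μ - l‖ * ‖R μ‖)) := by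
      calc ‖R μ‖ ≤ K * (1 + ‖μ - l‖ * ‖R μ‖) := hk'
        _ ≤ |K| * (1 + ‖μ - l‖ * ‖R μ‖) := by
            gcongr
            exact le_abs_self K
        _ ≤ |K| * (2 * (‖μ - l‖ * ‖R μ‖)) := by
            gcongr
            linarith
    have h9 : 1 ≤ |K| * (2 * ‖μ - l‖) := by
      have : ‖R μ‖ * 1 ≤ ‖R μ‖ * (|K| * (2 * ‖μ - l‖)) := by
        calc ‖R μ‖ * 1 = ‖R μ‖ := mul_one _
          _ ≤ _ := h8
          _ = _ := by ring
      exact le_of_mul_le_mul_left this hR0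
    have h10 : ‖μ - l‖ * (2 * (|K| + 1)) < 1 := by
      rwa [lt_div_iff₀ (by positivity)] at hμl
    nlinarith

/-- A nonscalar operator without nontrivial closed hyperinvariant subspace has a boundary point
of the spectrum which is not an eigenvalue of the adjoint. -/
theorem HY.hyper (T : X →L[ℂ] X) (hT : ∀ c : ℂ, T ≠ c • (1 : X →L[ℂ] X))
    (hno : ∀ M : Submodule ℂ X, IsClosed (M : Set X) →
      (∀ S : X →L[ℂ] X, S * T = T * S → ∀ x ∈ M, S x ∈ M) → M = ⊥ ∨ M = ⊤) :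
    ∃ l ∈ frontier (spectrum ℂ T), Dense (Set.range (T - l • (1 : X →L[ℂ] X))) := by
  have hX : Nontrivial X := by
    by_contra h
    rw [not_nontrivial_iff_subsingleton] at h
    apply hT 0
    ext x
    exact Subsingleton.elim _ _
  have hne : (frontier (spectrum ℂ T)).Nonempty := by
    rw [nonempty_frontier_iff]
    refine ⟨spectrum.nonempty T, ?_⟩
    intro h
    have hb := spectrum.isBounded (𝕜 := ℂ) T
    rw [h] at hb
    exact NormedSpace.unbounded_univ ℂ ℂ hb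
  obtain ⟨l, hl⟩ := hne
  set R : X →L[ℂ] X := T - l • (1 : X →L[ℂ] X) with hR
  have hinv : ∀ S : X →L[ℂ] X, S * T = T * S →
      ∀ x ∈ (LinearMap.range (R : X →ₗ[ℂ] X)).topologicalClosure,
        S x ∈ (LinearMap.range (R : X →ₗ[ℂ] X)).topologicalClosure := by
    intro S hS x hx
    have hx' : x ∈ closure (Set.range R) := hx
    have h3 : S x ∈ closure (Set.range R) := by
      refine map_mem_closure S.continuous hx' ?_
      rintro _ ⟨z, rfl⟩
      refine ⟨S z, ?_⟩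
      have h4 : S (T z) = T (S z) := by
        have := congrArg (fun A : X →L[ℂ] X => A z) hS
        simpa using this
      simp [hR, h4]
    exact h3
  rcases hno (LinearMap.range (R : X →ₗ[ℂ] X)).topologicalClosure
    (Submodule.isClosed_topologicalClosure _) hinv with h | h
  · exfalso
    apply hT l
    have h1 : R = 0 := by
      ext z
      have h2 : R z ∈ (LinearMap.range (R : X →ₗ[ℂ] X)).topologicalClosure :=
        Submodule.le_topologicalClosure _ ⟨z, rfl⟩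
      rw [h] at h2
      simpa using h2
    rw [hR, sub_eq_zero] at h1
    exact h1
  · refine ⟨l, hl, ?_⟩
    rw [← hR]
    intro x
    have h2 : x ∈ (LinearMap.range (R : X →ₗ[ℂ] X)).topologicalClosure := by rw [h]; trivial
    exact h2

end Vale.Agent.P129
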