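import Vale.Agent.P129.Defs

/-!
# P129, row ME: power bounded mean ergodic operators which are not uniformly ergodic
-/

namespace Vale.Agent.P129.ME

open Filter Topology Set

variable {𝕜 X : Type*} [RCLike 𝕜] [NormedAddCommGroup X] [NormedSpace 𝕜 X]

theorem telescope (T : X →L[𝕜] X) (n : ℕ) (z : X) :
    ∑ k ∈ Finset.range n, (T ^ k) (z - T z) = z - (T ^ n) z := by
  have h1 : ∀ k, (T ^ k) (z - T z) = (T ^ k) z - (T ^ (k + 1)) z := by
    intro k
    rw [map_sub, pow_succ]
    rfl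
  rw [Finset.sum_congr rfl fun k _ => h1 k, Finset.sum_range_sub' (fun k => (T ^ k) z)]
  simp

theorem main (T : X →L[𝕜] X) (hpb : ∃ M : ℝ, ∀ n : ℕ, ‖T ^ n‖ ≤ M)
    (P : X →L[𝕜] X)
    (hme : ∀ x : X, Tendsto (fun n : ℕ => ((n : 𝕜)⁻¹) • ∑ k ∈ Finset.range n, (T ^ k) x) atTop
      (𝓝 (P x)))
    (hnot : ¬ Tendsto (fun n : ℕ => ((n : 𝕜)⁻¹) • ∑ k ∈ Finset.range n, T ^ k) atTop (𝓝 P)) :
    ∃ S : ℕ → X →L[𝕜] X, Dense {x : X | ∃ K : ℝ, ∀ i, ‖S i x‖ ≤ K} ∧
      ¬ ∃ K : ℝ, ∀ i, ‖S i‖ ≤ K := by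
  obtain ⟨M, hM⟩ := hpb
  have hM0 : 0 ≤ M := (norm_nonneg _).trans (hM 0)
  set A : ℕ → X →L[𝕜] X := fun n => ((n : 𝕜)⁻¹) • ∑ k ∈ Finset.range n, T ^ k with hAdef
  have hA : ∀ n x, A n x = ((n : 𝕜)⁻¹) • ∑ k ∈ Finset.range n, (T ^ k) x := by
    intro n x
    simp [hAdef, ContinuousLinearMap.sum_apply]
  have h1 : ∀ x, Tendsto (fun n => A n x) atTop (𝓝 (P x)) := by
    intro x
    simpa only [hA] using hme x
  have hnn : ∀ n : ℕ, n ≠ 0 → (n : 𝕜) ≠ 0 := fun n hn => Nat.cast_ne_zero.2 hn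
  have hcomm : ∀ n x, A n (T x) = T (A n x) := by
    intro n x
    rw [hA, hA, map_smul, map_sum]
    congr 1
    refine Finset.sum_congr rfl fun k _ => ?_
    have h2 : T ^ k * T = T * T ^ k := (Commute.pow_self T k).eq
    exact congrArg (fun L : X →L[𝕜] X => L x) h2
  have hdiff : ∀ n z, A n (z - T z) = ((n : 𝕜)⁻¹) • (z - (T ^ n) z) := by
    intro n z
    rw [hA, telescope]
  have hbd : ∀ n z, ‖z - (T ^ n) z‖ ≤ (1 + M) * ‖z‖ := by
    intro n z
    calc ‖z - (T ^ n) z‖ ≤ ‖z‖ + ‖(T ^ n) z‖ := norm_sub_le _ _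
      _ ≤ ‖z‖ + M * ‖z‖ := by
          gcongr
          exact ((T ^ n).le_opNorm z).trans (mul_le_mul_of_nonneg_right (hM n) (norm_nonneg z))
      _ = (1 + M) * ‖z‖ := by ring
  have hT0 : ∀ z, Tendsto (fun n => A n (z - T z)) atTop (𝓝 0) := by
    intro z
    refine squeeze_zero_norm (a := fun n : ℕ => ((1 + M) * ‖z‖) / (n : ℝ)) ?_ ?_
    · intro n
      rw [hdiff, norm_smul, norm_inv, RCLike.norm_natCast, inv_mul_eq_div]
      exact div_le_div_of_nonneg_right (hbd n z) (Nat.cast_nonneg n)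
    · exact tendsto_const_div_atTop_nhds_zero_nat _
  have hPT : ∀ z, P (z - T z) = 0 := fun z => tendsto_nhds_unique (h1 _) (hT0 z)
  have hTP : ∀ x, T (P x) = P x := by
    intro x
    have h2 : Tendsto (fun n => T (A n x)) atTop (𝓝 (T (P x))) :=
      (T.continuous.tendsto _).comp (h1 x)
    have h3 : Tendsto (fun n => T (A n x)) atTop (𝓝 (P (T x))) := by
      simpa only [hcomm] using h1 (T x)
    have h4 : P x = P (T x) := by
      have h5 := hPT x
      rw [map_sub, sub_eq_zero] at h5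
      exact h5
    exact (tendsto_nhds_unique h2 h3).trans h4.symm
  have hTkP : ∀ (k : ℕ) x, (T ^ k) (P x) = P x := by
    intro k x
    induction k with
    | zero => simp
    | succ k ih =>
      rw [pow_succ]
      show (T ^ k) (T (P x)) = P x
      rw [hTP, ih]
  have hAP : ∀ n : ℕ, n ≠ 0 → ∀ x, A n (P x) = P x := by
    intro n hn x
    rw [hA, Finset.sum_congr rfl fun k _ => hTkP k x, Finset.sum_const, Finset.card_range,
      ← Nat.cast_smul_eq_nsmul 𝕜, smul_smul, inv_mul_cancel₀ (hnn n hn), one_smul]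
  have hPP : ∀ x, P (P x) = P x := by
    intro x
    refine tendsto_nhds_unique (h1 (P x)) ?_
    refine tendsto_const_nhds.congr' ?_
    filter_upwards [eventually_ne_atTop 0] with n hn
    rw [hAP n hn]
  refine ⟨fun n => (n : 𝕜) • (A n - P), ?_, ?_⟩
  · -- density
    have hmem : ∀ x z : X, P x + (z - T z) ∈
        {x : X | ∃ K : ℝ, ∀ i : ℕ, ‖((i : 𝕜) • (A i - P)) x‖ ≤ K} := by
      intro x z
      refine ⟨(1 + M) * ‖z‖, fun n => ?_⟩
      by_cases hn : n = 0
      · subst hn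
        simp only [Nat.cast_zero, zero_smul, ContinuousLinearMap.zero_apply, norm_zero]
        positivity
      · have h2 : ((n : 𝕜) • (A n - P)) (P x + (z - T z)) = z - (T ^ n) z := by
          rw [ContinuousLinearMap.smul_apply, ContinuousLinearMap.sub_apply, map_add, map_add,
            hAP n hn, hPP, hPT, hdiff, add_zero, add_sub_cancel_left, smul_smul,
            mul_inv_cancel₀ (hnn n hn), one_smul]
        rw [h2]
        exact hbd n z
    intro x
    have h3 : ∀ n : ℕ, n ≠ 0 → ∃ z, x - A n x = z - T z := by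
      intro n hn
      refine ⟨((n : 𝕜)⁻¹) • ∑ k ∈ Finset.range n, ∑ j ∈ Finset.range k, (T ^ j) x, ?_⟩
      have h4 : ∀ k : ℕ, (∑ j ∈ Finset.range k, (T ^ j) x) - T (∑ j ∈ Finset.range k, (T ^ j) x) =
          x - (T ^ k) x := by
        intro k
        rw [← telescope T k x, map_sum, ← Finset.sum_sub_distrib]
        refine Finset.sum_congr rfl fun j _ => ?_
        rw [map_sub]
        congr 1
        have h2 : T ^ j * T = T * T ^ j := (Commute.pow_self T j).eq
        exact (congrArg (fun L : X →L[𝕜] X => L x) h2).symm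
      rw [map_smul, ← smul_sub, map_sum, ← Finset.sum_sub_distrib,
        Finset.sum_congr rfl fun k _ => h4 k, Finset.sum_sub_distrib, Finset.sum_const,
        Finset.card_range, smul_sub, ← Nat.cast_smul_eq_nsmul 𝕜, smul_smul,
        inv_mul_cancel₀ (hnn n hn), one_smul, hA]
    have h5 : Tendsto (fun n => P x + (x - A n x)) atTop (𝓝 x) := by
      have h6 := (tendsto_const_nhds (x := P x)).add ((tendsto_const_nhds (x := x)).sub (h1 x))
      have h7 : P x + (x - P x) = x := by abel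
      rwa [h7] at h6
    refine mem_closure_of_tendsto h5 ?_
    filter_upwards [eventually_ne_atTop 0] with n hn
    obtain ⟨z, hz⟩ := h3 n hn
    rw [hz]
    exact hmem x z
  · rintro ⟨K, hK⟩
    apply hnot
    rw [tendsto_iff_norm_sub_tendsto_zero]
    refine squeeze_zero' (g := fun n : ℕ => K / (n : ℝ)) (Eventually.of_forall fun _ => norm_nonneg _)
      ?_ (tendsto_const_div_atTop_nhds_zero_nat _)
    filter_upwards [eventually_gt_atTop 0] with n hn
    have h2 := hK n
    rw [norm_smul, RCLike.norm_natCast] at h2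
    rw [le_div_iff₀ (by exact_mod_cast hn), mul_comm]
    exact h2

end Vale.Agent.P129.ME
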