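import Vale.Agent.P129.Defs

namespace Vale.Agent.P129

open Filter Topology Set

variable {𝕜 X : Type*} [RCLike 𝕜] [NormedAddCommGroup X] [NormedSpace 𝕜 X] [CompleteSpace X]

namespace SG

/-- The averages of an orbit are in the Favard class. -/
theorem favard (T : ℝ → X →L[𝕜] X)
    (hadd : ∀ s t : ℝ, 0 ≤ s → 0 ≤ t → T (s + t) = T s * T t)
    (hcont : ∀ x : X, ContinuousOn (fun t => T t x) (Ici 0)) (h0 : T 0 = 1) (x : X) (ε : ℝ)
    (hε : 0 < ε) : ∃ y : X, ‖y - x‖ < ε ∧ ∃ K : ℝ, ∀ t : ℝ, 0 < t → t ≤ 1 → ‖T t y - y‖ ≤ K * t := by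
  let _ : NormedSpace ℝ X := NormedSpace.restrictScalars ℝ 𝕜 X
  have hf := hcont x
  -- bound on `[0, 2]`
  obtain ⟨M, hM⟩ : ∃ M : ℝ, ∀ s ∈ Icc (0 : ℝ) 2, ‖T s x‖ ≤ M := by
    have hc : ContinuousOn (fun t => T t x) (Icc 0 2) := hf.mono Icc_subset_Ici_self
    obtain ⟨C, hC⟩ := (isCompact_Icc (a := (0 : ℝ)) (b := 2)).exists_bound_of_continuousOn hc
    exact ⟨C, hC⟩
  -- small times
  obtain ⟨d, hd0, hd1, hd⟩ : ∃ d : ℝ, 0 < d ∧ d ≤ 1 ∧ ∀ s ∈ Icc (0 : ℝ) d, ‖T s x - x‖ ≤ ε / 2 := by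
    have h1 : ContinuousWithinAt (fun t => T t x) (Ici 0) 0 := hf 0 self_mem_Ici
    have h2 := Metric.continuousWithinAt_iff.mp h1 (ε / 2) (half_pos hε)
    obtain ⟨δ, hδ, h3⟩ := h2
    refine ⟨min (δ / 2) 1, lt_min (half_pos hδ) one_pos, min_le_right _ _, fun s hs => ?_⟩
    have h4 : s < δ := lt_of_le_of_lt (hs.2.trans (min_le_left _ _)) (half_lt_self hδ)
    have h5 := h3 (show s ∈ Ici (0 : ℝ) from hs.1) (by
      rw [Real.dist_eq, sub_zero, abs_of_nonneg hs.1]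
      exact h4)
    rw [h0] at h5
    rw [← dist_eq_norm]
    exact h5.le
  have hint : ∀ a b : ℝ, 0 ≤ a → 0 ≤ b →
      IntervalIntegrable (fun t => T t x) MeasureTheory.volume a b := by
    intro a b ha hb
    apply ContinuousOn.intervalIntegrable
    apply hf.mono
    intro s hs
    exact le_trans (le_min ha hb) hs.1
  refine ⟨d⁻¹ • ∫ s in (0 : ℝ)..d, T s x, ?_, d⁻¹ * (M + M), fun t ht ht1 => ?_⟩
  · have h1 : (d⁻¹ • ∫ s in (0 : ℝ)..d, T s x) - x = d⁻¹ • ∫ s in (0 : ℝ)..d, (T s x - x) := by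
      rw [intervalIntegral.integral_sub (hint 0 d le_rfl hd0.le) (by simp)]
      rw [intervalIntegral.integral_const, smul_sub, sub_zero, smul_smul,
        inv_mul_cancel₀ hd0.ne', one_smul]
    rw [h1, norm_smul, norm_inv, Real.norm_eq_abs, abs_of_pos hd0]
    have h2 : ‖∫ s in (0 : ℝ)..d, (T s x - x)‖ ≤ ε / 2 * |d - 0| := by
      apply intervalIntegral.norm_integral_le_of_norm_le_const
      intro s hs
      rw [uIoc_of_le hd0.le] at hs
      exact hd s ⟨hs.1.le, hs.2⟩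
    rw [sub_zero, abs_of_pos hd0] at h2
    calc d⁻¹ * ‖∫ s in (0 : ℝ)..d, (T s x - x)‖ ≤ d⁻¹ * (ε / 2 * d) := by gcongr
      _ = ε / 2 := by field_simp
      _ < ε := half_lt_self hε
  · have h1 : T t (d⁻¹ • ∫ s in (0 : ℝ)..d, T s x) = d⁻¹ • ∫ s in t..(t + d), T s x := by
      have h2 : T t (d⁻¹ • ∫ s in (0 : ℝ)..d, T s x) = d⁻¹ • T t (∫ s in (0 : ℝ)..d, T s x) :=
        ((T t).restrictScalars ℝ).map_smul _ _
      rw [h2, ← ContinuousLinearMap.intervalIntegral_comp_comm (T t) (hint 0 d le_rfl hd0.le)]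
      congr 1
      have h3 : ∫ s in (0 : ℝ)..d, T t (T s x) = ∫ s in (0 : ℝ)..d, (fun r => T r x) (t + s) := by
        apply intervalIntegral.integral_congr
        intro s hs
        rw [uIcc_of_le hd0.le] at hs
        simp only
        rw [hadd t s ht.le hs.1]
        rfl
      rw [h3, intervalIntegral.integral_comp_add_left (fun r => T r x) t, add_zero]
    have h4 : (∫ s in t..(t + d), T s x) - ∫ s in (0 : ℝ)..d, T s x
        = (∫ s in d..(t + d), T s x) - ∫ s in (0 : ℝ)..t, T s x := by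
      have h5 := intervalIntegral.integral_add_adjacent_intervals (hint 0 t le_rfl ht.le)
        (hint t (t + d) ht.le (by linarith))
      have h6 := intervalIntegral.integral_add_adjacent_intervals (hint 0 d le_rfl hd0.le)
        (hint d (t + d) hd0.le (by linarith))
      rw [sub_eq_sub_iff_add_eq_add, add_comm, h5, ← h6, add_comm]
    rw [h1, ← smul_sub, h4, norm_smul, norm_inv, Real.norm_eq_abs, abs_of_pos hd0]
    have h7 : ‖∫ s in d..(t + d), T s x‖ ≤ M * |t + d - d| := by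
      apply intervalIntegral.norm_integral_le_of_norm_le_const
      intro s hs
      rw [uIoc_of_le (by linarith)] at hs
      exact hM s ⟨by linarith [hs.1], by linarith [hs.2]⟩
    have h8 : ‖∫ s in (0 : ℝ)..t, T s x‖ ≤ M * |t - 0| := by
      apply intervalIntegral.norm_integral_le_of_norm_le_const
      intro s hs
      rw [uIoc_of_le ht.le] at hs
      exact hM s ⟨by linarith [hs.1], by linarith [hs.2]⟩
    rw [add_sub_cancel_right, abs_of_pos ht] at h7
    rw [sub_zero, abs_of_pos ht] at h8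
    calc d⁻¹ * ‖(∫ s in d..(t + d), T s x) - ∫ s in (0 : ℝ)..t, T s x‖
        ≤ d⁻¹ * (M * t + M * t) := by
          gcongr
          exact (norm_sub_le _ _).trans (add_le_add h7 h8)
      _ = d⁻¹ * (M + M) * t := by ring

omit [CompleteSpace X] in
/-- A linear bound on `T t - 1` gives norm continuity. -/
theorem norm_cont (T : ℝ → X →L[𝕜] X)
    (hadd : ∀ s t : ℝ, 0 ≤ s → 0 ≤ t → T (s + t) = T s * T t) (h0 : T 0 = 1) (K : ℝ) (hK0 : 0 ≤ K)
    (hK : ∀ t : ℝ, 0 < t → t ≤ 1 → ‖T t - 1‖ ≤ K * t) : ContinuousOn T (Ici 0) := by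
  have hK' : ∀ t : ℝ, 0 ≤ t → t ≤ 1 → ‖T t - 1‖ ≤ K * t := by
    intro t ht ht1
    rcases ht.eq_or_lt with rfl | h
    · rw [h0]
      simp
    · exact hK t h ht1
  have h1 : ∀ t : ℝ, 0 ≤ t → t ≤ 1 → ‖T t‖ ≤ 1 + K := by
    intro t ht ht1
    have h2 : T t = (T t - 1) + 1 := by abel
    rw [h2]
    have h3 : ‖(1 : X →L[𝕜] X)‖ ≤ 1 := ContinuousLinearMap.norm_id_le
    have h4 := hK' t ht ht1
    calc ‖(T t - 1) + 1‖ ≤ ‖T t - 1‖ + ‖(1 : X →L[𝕜] X)‖ := norm_add_le _ _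
      _ ≤ K * t + 1 := add_le_add h4 h3
      _ ≤ 1 + K := by nlinarith
  have hB : ∀ n : ℕ, ∀ r : ℝ, 0 ≤ r → r ≤ n → ‖T r‖ ≤ (1 + K) ^ n := by
    intro n
    induction n with
    | zero =>
      intro r hr hr1
      have : r = 0 := le_antisymm (by simpa using hr1) hr
      subst this
      rw [h0, pow_zero]
      exact ContinuousLinearMap.norm_id_le
    | succ n ih =>
      intro r hr hr1
      rcases le_total r 1 with h2 | h2
      · refine (h1 r hr h2).trans ?_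
        exact le_self_pow₀ (by linarith) (Nat.succ_ne_zero n)
      · have h3 : T r = T 1 * T (r - 1) := by
          rw [← hadd 1 (r - 1) zero_le_one (by linarith)]
          congr 1
          ring
        rw [h3]
        have h4 := ih (r - 1) (by linarith) (by push_cast at hr1; linarith)
        calc ‖T 1 * T (r - 1)‖ ≤ ‖T 1‖ * ‖T (r - 1)‖ := norm_mul_le _ _
          _ ≤ (1 + K) * (1 + K) ^ n :=
            mul_le_mul (h1 1 zero_le_one le_rfl) h4 (norm_nonneg _) (by linarith)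
          _ = (1 + K) ^ (n + 1) := by ring
  have hdiff : ∀ s t : ℝ, 0 ≤ s → s ≤ t → t - s ≤ 1 → ∀ n : ℕ, s ≤ n →
      ‖T t - T s‖ ≤ (1 + K) ^ n * (K * (t - s)) := by
    intro s t hs hst hts n hn
    have h3 : T t = T s * T (t - s) := by
      rw [← hadd s (t - s) hs (by linarith)]
      congr 1
      ring
    have h4 : T t - T s = T s * (T (t - s) - 1) := by
      rw [h3, mul_sub, mul_one]
    rw [h4]
    refine (norm_mul_le _ _).trans ?_
    exact mul_le_mul (hB n s hs hn) (hK' _ (by linarith) hts) (norm_nonneg _) (by positivity)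
  intro s hs
  obtain ⟨n, hn⟩ := exists_nat_ge (s + 1)
  rw [Metric.continuousWithinAt_iff]
  intro ε hε
  have hC : 0 < (1 + K) ^ n * K + 1 := by positivity
  refine ⟨min 1 (ε / ((1 + K) ^ n * K + 1)), lt_min one_pos (div_pos hε hC), fun {t} ht hts => ?_⟩
  rw [Real.dist_eq] at hts
  have h5 := lt_of_lt_of_le hts (min_le_left _ _)
  have h6 := lt_of_lt_of_le hts (min_le_right _ _)
  rw [lt_div_iff₀ hC] at h6
  have hs' : (0 : ℝ) ≤ s := hs
  have ht' : (0 : ℝ) ≤ t := ht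
  have h7 : dist (T t) (T s) ≤ (1 + K) ^ n * (K * |t - s|) := by
    rcases le_total s t with h | h
    · rw [dist_eq_norm, abs_of_nonneg (by linarith)]
      rw [abs_of_nonneg (by linarith)] at h5
      exact hdiff s t hs' h h5.le n (by linarith)
    · rw [dist_comm, dist_eq_norm, abs_sub_comm, abs_of_nonneg (by linarith)]
      rw [abs_sub_comm, abs_of_nonneg (by linarith)] at h5
      exact hdiff t s ht' h h5.le n (by linarith)
  refine h7.trans_lt ?_
  have h8 : 0 ≤ |t - s| := abs_nonneg _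
  nlinarith

end SG

/-- row SG: strongly continuous semigroups that are not norm continuous (from `fam`). -/
theorem semigroup_of
    (fam : ∀ S : Ioc (0 : ℝ) 1 → X →L[𝕜] X, Dense {x : X | ∃ K : ℝ, ∀ i, ‖S i x‖ ≤ K} →
      (¬ ∃ K : ℝ, ∀ i, ‖S i‖ ≤ K) → HasSepQuot 𝕜 X)
    (T : ℝ → X →L[𝕜] X) (h0 : T 0 = 1)
    (hadd : ∀ s t : ℝ, 0 ≤ s → 0 ≤ t → T (s + t) = T s * T t)
    (hcont : ∀ x : X, ContinuousOn (fun t => T t x) (Ici 0))
    (hnot : ¬ ContinuousOn T (Ici 0)) : HasSepQuot 𝕜 X := by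
  have hnorm : ∀ t : ℝ, 0 < t → ‖((t⁻¹ : ℝ) : 𝕜)‖ = t⁻¹ := by
    intro t ht
    rw [RCLike.norm_ofReal, abs_of_pos (inv_pos.mpr ht)]
  refine fam (fun t => (((t : ℝ)⁻¹ : ℝ) : 𝕜) • (T t - 1)) ?_ ?_
  · rw [Metric.dense_iff]
    intro x r hr
    obtain ⟨y, hy, K, hK⟩ := SG.favard T hadd hcont h0 x r hr
    refine ⟨y, by rwa [Metric.mem_ball, dist_eq_norm], K, fun t => ?_⟩
    have ht := t.2.1
    have h1 := hK t t.2.1 t.2.2
    have h2 : ((((t : ℝ)⁻¹ : ℝ) : 𝕜) • (T t - 1)) y = (((t : ℝ)⁻¹ : ℝ) : 𝕜) • (T t y - y) := rfl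
    rw [h2, norm_smul, hnorm _ ht, inv_mul_le_iff₀ ht]
    linarith
  · rintro ⟨K, hK⟩
    apply hnot
    refine SG.norm_cont T hadd h0 (max K 0) (le_max_right _ _) fun t ht ht1 => ?_
    have h1 := hK ⟨t, ht, ht1⟩
    rw [norm_smul, hnorm _ ht, inv_mul_le_iff₀ ht] at h1
    refine h1.trans ?_
    rw [mul_comm]
    exact mul_le_mul_of_nonneg_right (le_max_left _ _) ht.le

end Vale.Agent.P129
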