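import Vale.Agent.P129.Fam
import Vale.Agent.P129.AUOf
import Vale.Agent.P129.SGOf
import Vale.Agent.P129.ME0
import Vale.Agent.P129.HY0
import Vale.Agent.P129.Dense0

/-! P129: the verbatim rows. -/

namespace Vale.Agent.P129

open Filter Topology Set

section
variable {𝕜 X : Type*} [RCLike 𝕜] [NormedAddCommGroup X] [NormedSpace 𝕜 X] [CompleteSpace X]

theorem semigroup (T : ℝ → X →L[𝕜] X) (h0 : T 0 = 1)
    (hadd : ∀ s t : ℝ, 0 ≤ s → 0 ≤ t → T (s + t) = T s * T t)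
    (hcont : ∀ x : X, ContinuousOn (fun t => T t x) (Ici 0))
    (hnot : ¬ ContinuousOn T (Ici 0)) : HasSepQuot 𝕜 X :=
  semigroup_of (fun S h1 h2 => fam S h1 h2) T h0 hadd hcont hnot

theorem meanErgodic (T : X →L[𝕜] X) (hpb : ∃ M : ℝ, ∀ n : ℕ, ‖T ^ n‖ ≤ M)
    (P : X →L[𝕜] X)
    (hme : ∀ x : X, Tendsto (fun n : ℕ => ((n : 𝕜)⁻¹) • ∑ k ∈ Finset.range n, (T ^ k) x) atTop
      (𝓝 (P x)))
    (hnot : ¬ Tendsto (fun n : ℕ => ((n : 𝕜)⁻¹) • ∑ k ∈ Finset.range n, T ^ k) atTop (𝓝 P)) :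
    HasSepQuot 𝕜 X := by
  obtain ⟨S, h1, h2⟩ := ME.main T hpb P hme hnot
  exact fam S h1 h2

theorem asymptoticUnit (T : ℕ → X →L[𝕜] X) (h1 : ∀ x, Tendsto (fun n => T n x) atTop (𝓝 x))
    (h2 : ∀ m, Tendsto (fun n => T n * T m) atTop (𝓝 (T m)))
    (hnot : ¬ Tendsto T atTop (𝓝 1)) : HasSepQuot 𝕜 X :=
  asymptoticUnit_of (fun S h1 h2 => fam S h1 h2) T h1 h2 hnot

theorem algebra {A : Type*} [NonUnitalNormedRing A] [NormedSpace 𝕜 A] [IsScalarTower 𝕜 A A]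
    [SMulCommClass 𝕜 A A] [CompleteSpace A] (e : ℕ → A)
    (he : ∀ a, Tendsto (fun n => e n * a) atTop (𝓝 a))
    (hno : ¬ ∃ u : A, ∀ a, u * a = a) : HasSepQuot 𝕜 A :=
  algebra_of (fun S h1 h2 => fam S h1 h2) e he hno

theorem denseRange {Z : Type*} [NormedAddCommGroup Z] [NormedSpace 𝕜 Z] [CompleteSpace Z]
    (R : Z →L[𝕜] X) (hR : DenseRange R) (hns : ¬ Function.Surjective R) : HasSepQuot 𝕜 X := by
  obtain ⟨C, h1, h2, h3, h4, h5, h6⟩ := OR.props R hR hns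
  exact core C h1 h2 h3 h4 h5 h6
end

section
variable {X : Type*} [NormedAddCommGroup X] [NormedSpace ℂ X] [CompleteSpace X]

theorem boundary (T : X →L[ℂ] X) (l : ℂ) (hl : l ∈ frontier (spectrum ℂ T))
    (hd : Dense (Set.range (T - l • (1 : X →L[ℂ] X)))) : HasSepQuot ℂ X := by
  obtain ⟨S, h1, h2⟩ := HY.boundary T l hl hd
  exact fam S h1 h2

theorem hyper (T : X →L[ℂ] X) (hT : ∀ c : ℂ, T ≠ c • (1 : X →L[ℂ] X))
    (hno : ∀ M : Submodule ℂ X, IsClosed (M : Set X) →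
      (∀ S : X →L[ℂ] X, S * T = T * S → ∀ x ∈ M, S x ∈ M) → M = ⊥ ∨ M = ⊤) :
    HasSepQuot ℂ X := by
  obtain ⟨l, hl, hd⟩ := HY.hyper T hT hno
  exact boundary T l hl hd
end

end Vale.Agent.P129
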