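import Vale.Agent.P129.Defs

/-! P129, the core: a closed absolutely convex set with dense span that is not a neighbourhood of
zero forces a separable infinite-dimensional quotient. -/

namespace Vale.Agent.P129

open Filter Topology Set

variable {𝕜 X : Type*} [RCLike 𝕜] [NormedAddCommGroup X] [NormedSpace 𝕜 X]

/-- Functionals of norm one that are small on `C`. -/
theorem exists_small (C : Set X) (hcl : IsClosed C)
    (hconv : ∀ x ∈ C, ∀ y ∈ C, ∀ a b : ℝ, 0 ≤ a → 0 ≤ b →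
      a + b = 1 → (a : 𝕜) • x + (b : 𝕜) • y ∈ C)
    (hbal : Balanced 𝕜 C) (h0 : (0 : X) ∈ C) (hball : C ∉ 𝓝 (0 : X)) {δ : ℝ} (hδ : 0 < δ) :
    ∃ φ : StrongDual 𝕜 X, ‖φ‖ = 1 ∧ ∀ x ∈ C, ‖φ x‖ ≤ δ := by
  let _ : NormedSpace ℝ X := NormedSpace.restrictScalars ℝ 𝕜 X
  have hsm : ∀ (r : ℝ) (x : X), r • x = (r : 𝕜) • x := fun r x => rfl
  have _ : IsScalarTower ℝ 𝕜 X := ⟨fun r c x => by
    rw [hsm, ← smul_assoc]; congr 1; rw [RCLike.real_smul_eq_coe_mul, smul_eq_mul]⟩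
  have hC : Convex ℝ C := by
    intro x hx y hy a b ha hb hab
    exact hconv x hx y hy a b ha hb hab
  have hex : ∃ x, ‖x‖ < δ ∧ x ∉ C := by
    by_contra hcon
    push Not at hcon
    exact hball (Metric.mem_nhds_iff.2 ⟨δ, hδ, fun x hx => hcon x (by simpa using hx)⟩)
  obtain ⟨x, hx, hxC⟩ := hex
  obtain ⟨f, u, hf1, hf2⟩ := RCLike.geometric_hahn_banach_closed_point (𝕜 := 𝕜) hC hcl hxC
  have hu : 0 < u := by simpa using hf1 0 h0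
  have hfb : ∀ a ∈ C, ‖f a‖ ≤ u := by
    intro a ha
    by_cases hfa : f a = 0
    · rw [hfa, norm_zero]; exact hu.le
    have hn : ‖f a‖ ≠ 0 := norm_ne_zero_iff.2 hfa
    have hmem : ((starRingEnd 𝕜 (f a)) * ((‖f a‖⁻¹ : ℝ) : 𝕜)) • a ∈ C := by
      apply hbal.smul_mem _ ha
      rw [norm_mul, RCLike.norm_conj, RCLike.norm_ofReal, abs_of_nonneg (by positivity)]
      rw [mul_inv_cancel₀ hn]
    have h3 := hf1 _ hmem
    rw [map_smul, smul_eq_mul] at h3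
    have h4 : (starRingEnd 𝕜 (f a)) * ((‖f a‖⁻¹ : ℝ) : 𝕜) * f a = ((‖f a‖ : ℝ) : 𝕜) := by
      have h5 : (starRingEnd 𝕜 (f a)) * f a = ((‖f a‖ ^ 2 : ℝ) : 𝕜) := by
        rw [RCLike.conj_mul]; push_cast; rfl
      calc (starRingEnd 𝕜 (f a)) * ((‖f a‖⁻¹ : ℝ) : 𝕜) * f a
          = ((starRingEnd 𝕜 (f a)) * f a) * ((‖f a‖⁻¹ : ℝ) : 𝕜) := by ring
        _ = ((‖f a‖ ^ 2 * ‖f a‖⁻¹ : ℝ) : 𝕜) := by rw [h5]; push_cast; rfl
        _ = ((‖f a‖ : ℝ) : 𝕜) := by congr 1; field_simp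
    rw [h4, RCLike.ofReal_re] at h3
    exact h3.le
  have hfx : u < ‖f x‖ := hf2.trans_le (RCLike.re_le_norm _)
  have hfn : 0 < ‖f‖ := by
    rcases (norm_nonneg f).eq_or_lt with h | h
    · have : ‖f x‖ ≤ 0 := by simpa [← h] using f.le_opNorm x
      linarith
    · exact h
  have hδf : u ≤ δ * ‖f‖ := by
    have h6 := f.le_opNorm x
    nlinarith [norm_nonneg x]
  refine ⟨((‖f‖⁻¹ : ℝ) : 𝕜) • f, ?_, fun a ha => ?_⟩
  · rw [norm_smul, RCLike.norm_ofReal, abs_of_nonneg (by positivity), inv_mul_cancel₀ hfn.ne']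
  · rw [smul_apply, norm_smul, RCLike.norm_ofReal,
      abs_of_nonneg (by positivity), inv_mul_le_iff₀ hfn]
    calc ‖f a‖ ≤ u := hfb a ha
      _ ≤ ‖f‖ * δ := by linarith

/-- Additionally small at finitely many vectors. -/
theorem exists_small' (C : Set X) (hcl : IsClosed C)
    (hconv : ∀ x ∈ C, ∀ y ∈ C, ∀ a b : ℝ, 0 ≤ a → 0 ≤ b →
      a + b = 1 → (a : 𝕜) • x + (b : 𝕜) • y ∈ C)
    (hbal : Balanced 𝕜 C) (h0 : (0 : X) ∈ C)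
    (hdense : Dense ((Submodule.span 𝕜 C : Submodule 𝕜 X) : Set X))
    (hball : C ∉ 𝓝 (0 : X)) {δ : ℝ} (hδ : 0 < δ) {n : ℕ} (z : Fin n → X) :
    ∃ φ : StrongDual 𝕜 X, ‖φ‖ = 1 ∧ (∀ x ∈ C, ‖φ x‖ ≤ δ) ∧ ∀ i, ‖φ (z i)‖ ≤ δ := by
  -- every vector of the span is absorbed
  have habs : ∀ y ∈ Submodule.span 𝕜 C, ∃ K : ℝ, 0 ≤ K ∧ ∀ (φ : StrongDual 𝕜 X) (ε : ℝ),
      (∀ x ∈ C, ‖φ x‖ ≤ ε) → ‖φ y‖ ≤ K * ε := by
    intro y hy
    induction hy using Submodule.span_induction with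
    | mem x hx => exact ⟨1, zero_le_one, fun φ ε h => by simpa using h x hx⟩
    | zero => exact ⟨0, le_rfl, fun φ ε h => by simp⟩
    | add x y _ _ hx hy =>
      obtain ⟨K, hK, h1⟩ := hx
      obtain ⟨L, hL, h2⟩ := hy
      refine ⟨K + L, by positivity, fun φ ε h => ?_⟩
      rw [map_add]
      exact (norm_add_le _ _).trans (by linarith [h1 φ ε h, h2 φ ε h])
    | smul c x _ hx =>
      obtain ⟨K, hK, h1⟩ := hx
      refine ⟨‖c‖ * K, by positivity, fun φ ε h => ?_⟩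
      rw [map_smul, norm_smul, mul_assoc]
      exact mul_le_mul_of_nonneg_left (h1 φ ε h) (norm_nonneg _)
  have hy : ∀ i, ∃ y ∈ Submodule.span 𝕜 C, ‖z i - y‖ < δ / 2 := by
    intro i
    obtain ⟨y, hy1, hy2⟩ := hdense.exists_dist_lt (z i) (half_pos hδ)
    exact ⟨y, hy1, by rwa [dist_eq_norm] at hy2⟩
  choose y hyC hyz using hy
  choose K hK0 hK using fun i => habs (y i) (hyC i)
  set S : ℝ := ∑ i, K i with hS
  have hS0 : 0 ≤ S := Finset.sum_nonneg fun i _ => hK0 i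
  have hKS : ∀ i, K i ≤ S := fun i => Finset.single_le_sum (fun j _ => hK0 j) (Finset.mem_univ i)
  have hη : 0 < δ / (2 * (S + 1)) := by positivity
  obtain ⟨φ, hφ1, hφ2⟩ := exists_small C hcl hconv hbal h0 hball (𝕜 := 𝕜) hη
  have hηδ : δ / (2 * (S + 1)) ≤ δ := by
    rw [div_le_iff₀ (by positivity)]; nlinarith
  refine ⟨φ, hφ1, fun x hx => (hφ2 x hx).trans hηδ, fun i => ?_⟩
  have h1 : ‖φ (z i - y i)‖ ≤ δ / 2 := by
    have := φ.le_opNorm (z i - y i)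
    rw [hφ1, one_mul] at this
    exact this.trans (hyz i).le
  have h2 : ‖φ (y i)‖ ≤ δ / 2 := by
    refine (hK i φ _ hφ2).trans ?_
    rw [mul_div_assoc', div_le_div_iff₀ (by positivity) (by positivity)]
    nlinarith [hKS i, hK0 i]
  calc ‖φ (z i)‖ = ‖φ (z i - y i) + φ (y i)‖ := by rw [← map_add, sub_add_cancel]
    _ ≤ δ := (norm_add_le _ _).trans (by linarith)

/-- `E` is the identity minus an operator of finite rank. -/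
def Good (E : X →L[𝕜] X) : Prop :=
  ∃ (n : ℕ) (g : Fin n → StrongDual 𝕜 X) (z : Fin n → X), ∀ x, E x = x - ∑ i, g i x • z i

theorem exists_delta {G B ε : ℝ} (hG0 : 0 ≤ G) (hB0 : 0 ≤ B) (hε : 0 < ε) :
    ∃ δ : ℝ, 0 < δ ∧ G * δ ≤ 1 / 4 ∧ δ * (1 + G) * (2 * B) ≤ ε := by
  refine ⟨min (1 / (4 * (G + 1))) (ε / (2 * (1 + G) * (B + 1))), by positivity, ?_, ?_⟩
  · calc G * min (1 / (4 * (G + 1))) (ε / (2 * (1 + G) * (B + 1)))
        ≤ G * (1 / (4 * (G + 1))) := mul_le_mul_of_nonneg_left (min_le_left _ _) hG0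
      _ ≤ 1 / 4 := by
        rw [mul_div_assoc', div_le_div_iff₀ (by positivity) (by positivity)]; nlinarith
  · calc min (1 / (4 * (G + 1))) (ε / (2 * (1 + G) * (B + 1))) * (1 + G) * (2 * B)
        ≤ (ε / (2 * (1 + G) * (B + 1))) * (1 + G) * (2 * B) := by
          gcongr
          exact min_le_right _ _
      _ = ε * (B / (B + 1)) := by field_simp
      _ ≤ ε * 1 := by
          gcongr
          rw [div_le_one (by positivity)]; linarith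
      _ = ε := mul_one _

theorem step_diff {E : X →L[𝕜] X} {n : ℕ} {g : Fin n → StrongDual 𝕜 X} {z : Fin n → X}
    (hEz : ∀ x, E x = x - ∑ i, g i x • z i) {φ : StrongDual 𝕜 X} {δ : ℝ} (_hδ : 0 < δ)
    (hφz : ∀ i, ‖φ (z i)‖ ≤ δ) (x : X) : ‖φ (E x) - φ x‖ ≤ (∑ i, ‖g i‖) * δ * ‖x‖ := by
  rw [hEz x, map_sub, sub_sub_cancel_left, norm_neg, map_sum]
  calc ‖∑ i, φ (g i x • z i)‖ ≤ ∑ i, ‖φ (g i x • z i)‖ := norm_sum_le _ _
    _ ≤ ∑ i, ‖g i‖ * (δ * ‖x‖) := by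
      refine Finset.sum_le_sum fun i _ => ?_
      rw [map_smul, norm_smul]
      calc ‖g i x‖ * ‖φ (z i)‖ ≤ (‖g i‖ * ‖x‖) * δ :=
            mul_le_mul ((g i).le_opNorm x) (hφz i) (norm_nonneg _) (by positivity)
        _ = ‖g i‖ * (δ * ‖x‖) := by ring
    _ = (∑ i, ‖g i‖) * δ * ‖x‖ := by rw [← Finset.sum_mul]; ring

theorem arith1 {δ G n a b c : ℝ} (hδ : 0 < δ) (hG : 0 ≤ G) (hn : 0 ≤ n) (h1 : a ≤ b + c)
    (h2 : b ≤ δ) (h3 : c ≤ G * δ * n) : a ≤ δ * (1 + G) * (1 + n) := by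
  have h4 : 0 ≤ δ * n := by positivity
  have h5 : 0 ≤ G * δ := by positivity
  linarith [show δ * (1 + G) * (1 + n) = δ + G * δ * n + δ * n + G * δ by ring]

theorem arith2 {δ G n a c B ε : ℝ} (hδ : 0 < δ) (hG : 0 ≤ G) (hn : 0 ≤ n) (hc : 0 ≤ c)
    (h4 : a ≤ δ * (1 + G) * (1 + n)) (h1 : c ≤ 2 * B) (hδ2 : δ * (1 + G) * (2 * B) ≤ ε) :
    a * c ≤ ε * (1 + n) := by
  calc a * c ≤ (δ * (1 + G) * (1 + n)) * (2 * B) := mul_le_mul h4 h1 hc (by positivity)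
    _ = (δ * (1 + G) * (2 * B)) * (1 + n) := by ring
    _ ≤ ε * (1 + n) := mul_le_mul_of_nonneg_right hδ2 (by positivity)

theorem step_norm {E : X →L[𝕜] X} {φ : StrongDual 𝕜 X} {x0 : X} (hx0 : ‖x0‖ < 1)
    (hne : 1 / 2 ≤ ‖φ (E x0)‖) : ‖E ((φ (E x0))⁻¹ • x0)‖ ≤ 2 * ‖E‖ := by
  rw [map_smul, norm_smul, norm_inv]
  have h2 : ‖E x0‖ ≤ ‖E‖ := by
    calc ‖E x0‖ ≤ ‖E‖ * ‖x0‖ := E.le_opNorm x0
      _ ≤ ‖E‖ * 1 := mul_le_mul_of_nonneg_left hx0.le (norm_nonneg _)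
      _ = ‖E‖ := mul_one _
  have h3 : ‖φ (E x0)‖⁻¹ ≤ 2 := by
    rw [inv_le_comm₀ (by linarith) (by norm_num)]; linarith
  exact mul_le_mul h3 h2 (norm_nonneg _) (by norm_num)

/-- One step of the construction. -/
theorem step (C : Set X) (hcl : IsClosed C)
    (hconv : ∀ x ∈ C, ∀ y ∈ C, ∀ a b : ℝ, 0 ≤ a → 0 ≤ b →
      a + b = 1 → (a : 𝕜) • x + (b : 𝕜) • y ∈ C)
    (hbal : Balanced 𝕜 C) (h0 : (0 : X) ∈ C)
    (hdense : Dense ((Submodule.span 𝕜 C : Submodule 𝕜 X) : Set X))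
    (hball : C ∉ 𝓝 (0 : X)) (E : X →L[𝕜] X) (hE : Good E) {ε : ℝ} (hε : 0 < ε) :
    ∃ (φ : StrongDual 𝕜 X) (w : X), φ (E w) = 1 ∧
      ∀ x ∈ C, ‖φ (E x)‖ * ‖E w‖ ≤ ε * (1 + ‖x‖) := by
  obtain ⟨n, g, z, hEz⟩ := hE
  set G : ℝ := ∑ i, ‖g i‖ with hG
  have hG0 : 0 ≤ G := Finset.sum_nonneg fun i _ => norm_nonneg _
  set B : ℝ := ‖E‖ with hB
  have hB0 : 0 ≤ B := norm_nonneg _
  obtain ⟨δ, hδ, hδ1, hδ2⟩ := exists_delta hG0 hB0 hε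
  obtain ⟨φ, hφ1, hφC, hφz⟩ := exists_small' C hcl hconv hbal h0 hdense hball (𝕜 := 𝕜) hδ z
  have hdiff : ∀ x, ‖φ (E x) - φ x‖ ≤ G * δ * ‖x‖ := step_diff hEz hδ hφz
  obtain ⟨x0, hx0, hx0'⟩ : ∃ x0 : X, ‖x0‖ < 1 ∧ 3 / 4 < ‖φ x0‖ :=
    φ.exists_lt_apply_of_lt_opNorm (by rw [hφ1]; norm_num)
  have hne : 1 / 2 ≤ ‖φ (E x0)‖ := by
    have h1 := hdiff x0
    have h2 : ‖φ x0‖ ≤ ‖φ (E x0)‖ + ‖φ (E x0) - φ x0‖ := by
      have := norm_sub_le (φ (E x0)) (φ (E x0) - φ x0)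
      rwa [sub_sub_cancel] at this
    have h3 : G * δ * ‖x0‖ ≤ 1 / 4 := by
      calc G * δ * ‖x0‖ ≤ G * δ * 1 := by gcongr
        _ ≤ 1 / 4 := by linarith
    linarith
  have hne0 : φ (E x0) ≠ 0 := by
    intro h
    rw [h, norm_zero] at hne
    linarith
  refine ⟨φ, (φ (E x0))⁻¹ • x0, ?_, fun x hx => ?_⟩
  · rw [map_smul, map_smul, smul_eq_mul, inv_mul_cancel₀ hne0]
  · have h6 : ‖φ (E x)‖ ≤ ‖φ x‖ + ‖φ (E x) - φ x‖ := by
      have := norm_add_le (φ x) (φ (E x) - φ x)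
      rwa [add_sub_cancel] at this
    exact arith2 hδ hG0 (norm_nonneg x) (norm_nonneg _)
      (arith1 hδ hG0 (norm_nonneg x) h6 (hφC x hx) (hdiff x)) (step_norm hx0 hne) hδ2

/-- The next operator. -/
noncomputable def next (E : X →L[𝕜] X) (φ : StrongDual 𝕜 X) (z : X) : X →L[𝕜] X :=
  E - (φ.comp E).smulRight z

theorem next_apply (E : X →L[𝕜] X) (φ : StrongDual 𝕜 X) (z x : X) :
    next E φ z x = E x - φ (E x) • z := rfl

theorem next_good {E : X →L[𝕜] X} (hE : Good E) (φ : StrongDual 𝕜 X) (z : X) :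
    Good (next E φ z) := by
  obtain ⟨n, g, v, hEv⟩ := hE
  refine ⟨n + 1, Fin.cons (φ.comp E) g, Fin.cons z v, fun x => ?_⟩
  rw [next_apply, Fin.sum_univ_succ]
  simp only [Fin.cons_zero, Fin.cons_succ, ContinuousLinearMap.comp_apply]
  generalize φ (E x) • z = s
  rw [hEv x]
  abel

/-- The sequences. -/
theorem exists_seq (C : Set X) (hcl : IsClosed C)
    (hconv : ∀ x ∈ C, ∀ y ∈ C, ∀ a b : ℝ, 0 ≤ a → 0 ≤ b →
      a + b = 1 → (a : 𝕜) • x + (b : 𝕜) • y ∈ C)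
    (hbal : Balanced 𝕜 C) (h0 : (0 : X) ∈ C)
    (hdense : Dense ((Submodule.span 𝕜 C : Submodule 𝕜 X) : Set X))
    (hball : C ∉ 𝓝 (0 : X)) :
    ∃ (E : ℕ → X →L[𝕜] X) (φ : ℕ → StrongDual 𝕜 X) (w : ℕ → X), (∀ x, E 0 x = x) ∧
      (∀ j x, E (j + 1) x = E j x - φ j (E j x) • E j (w j)) ∧ (∀ j, φ j (E j (w j)) = 1) ∧
      ∀ j, ∀ x ∈ C, ‖φ j (E j x)‖ * ‖E j (w j)‖ ≤ (1 / 2) ^ j * (1 + ‖x‖) := by
  have hstep : ∀ (E : {E : X →L[𝕜] X // Good E}) (j : ℕ), ∃ p : StrongDual 𝕜 X × X,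
      p.1 (E.1 p.2) = 1 ∧
        ∀ x ∈ C, ‖p.1 (E.1 x)‖ * ‖E.1 p.2‖ ≤ (1 / 2 : ℝ) ^ j * (1 + ‖x‖) := by
    intro E j
    obtain ⟨φ, w, h1, h2⟩ := step C hcl hconv hbal h0 hdense hball E.1 E.2
      (ε := (1 / 2 : ℝ) ^ j) (by positivity)
    exact ⟨(φ, w), h1, h2⟩
  choose p hp1 hp2 using hstep
  let S : ℕ → {E : X →L[𝕜] X // Good E} := fun j => Nat.rec
    ⟨ContinuousLinearMap.id 𝕜 X, 0, Fin.elim0, Fin.elim0, fun x => by simp⟩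
    (fun j E => ⟨next E.1 (p E j).1 (E.1 (p E j).2), next_good E.2 _ _⟩) j
  refine ⟨fun j => (S j).1, fun j => (p (S j) j).1, fun j => (p (S j) j).2, fun x => rfl,
    fun j x => rfl, fun j => hp1 _ _, fun j => hp2 _ _⟩

end Vale.Agent.P129
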