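import Mathlib

/-! P129: definition of a separable infinite-dimensional quotient, and the row statements. -/

namespace Vale.Agent.P129

/-- `X` has a separable infinite-dimensional quotient: there is a closed subspace `M` such that
`X ⧸ M` (with the quotient norm topology) is separable and infinite-dimensional. -/
def HasSepQuot (𝕜 X : Type*) [RCLike 𝕜] [NormedAddCommGroup X] [NormedSpace 𝕜 X] : Prop :=
  ∃ M : Submodule 𝕜 X, IsClosed (M : Set X) ∧ TopologicalSpace.SeparableSpace (X ⧸ M) ∧
    ¬ FiniteDimensional 𝕜 (X ⧸ M)

end Vale.Agent.P129
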