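import Vale.Agent.P129.Core

/-! P129: from the sequences of `Core.lean` to the quotient, and families of operators. -/

namespace Vale.Agent.P129

open Filter Topology Set

variable {𝕜 X : Type*} [RCLike 𝕜] [NormedAddCommGroup X] [NormedSpace 𝕜 X]

theorem kill {E : ℕ → X →L[𝕜] X} {φ : ℕ → StrongDual 𝕜 X} {w : ℕ → X}
    (hE : ∀ j x, E (j + 1) x = E j x - φ j (E j x) • E j (w j)) (h1 : ∀ j, φ j (E j (w j)) = 1)
    {i j : ℕ} (hij : i < j) (x : X) : φ i (E j x) = 0 := by
  induction j, hij using Nat.le_induction generalizing x with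
  | base => rw [hE, map_sub, map_smul, h1, smul_eq_mul, mul_one, sub_self]
  | succ j hj ih => rw [hE, map_sub, map_smul, ih x, ih (w j), smul_zero, sub_zero]

variable [CompleteSpace X]

theorem core (C : Set X) (hcl : IsClosed C)
    (hconv : ∀ x ∈ C, ∀ y ∈ C, ∀ a b : ℝ, 0 ≤ a → 0 ≤ b →
      a + b = 1 → (a : 𝕜) • x + (b : 𝕜) • y ∈ C)
    (hbal : Balanced 𝕜 C) (h0 : (0 : X) ∈ C)
    (hdense : Dense ((Submodule.span 𝕜 C : Submodule 𝕜 X) : Set X)) (hball : C ∉ 𝓝 (0 : X)) :
    HasSepQuot 𝕜 X := by
  obtain ⟨E, φ, w, hE0, hE, hφ, hsmall⟩ := exists_seq C hcl hconv hbal h0 hdense hball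
  set z : ℕ → X := fun j => E j (w j) with hz
  have hzk : ∀ i j, i < j → φ i (z j) = 0 := fun i j hij => kill hE hφ hij _
  let M : Submodule 𝕜 X := ⨅ i, LinearMap.ker (φ i : X →ₗ[𝕜] 𝕜)
  have hM : ∀ x, x ∈ M ↔ ∀ i, φ i x = 0 := by
    intro x
    simp [M, Submodule.mem_iInf]
  have hMcl : IsClosed (M : Set X) := by
    have : (M : Set X) = ⋂ i, {x | φ i x = 0} := by
      ext x; simp only [SetLike.mem_coe, hM, mem_iInter, mem_ofPred_eq]
    rw [this]
    exact isClosed_iInter fun i => isClosed_eq (φ i).continuous continuous_const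
  -- every element of `C` is in `M + closed span of z`
  have hspanz : ∀ j x, x - E j x ∈ Submodule.span 𝕜 (range z) := by
    intro j x
    induction j with
    | zero => rw [hE0, sub_self]; exact Submodule.zero_mem _
    | succ j ih =>
      rw [hE, show x - (E j x - φ j (E j x) • E j (w j)) =
        (x - E j x) + φ j (E j x) • z j from by rw [hz]; abel]
      exact Submodule.add_mem _ ih (Submodule.smul_mem _ _ (Submodule.subset_span ⟨j, rfl⟩))
  have hdec : ∀ x ∈ C, ∃ y ∈ M, x - y ∈ closure ((Submodule.span 𝕜 (range z) : Submodule 𝕜 X) : Set X) := by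
    intro x hx
    have hc : CauchySeq fun j => E j x := by
      refine cauchySeq_of_le_geometric (1 / 2) (1 + ‖x‖) (by norm_num) fun j => ?_
      rw [dist_eq_norm, hE, sub_sub_cancel, norm_smul, mul_comm (1 + ‖x‖)]
      exact hsmall j x hx
    obtain ⟨y, hy⟩ := cauchySeq_tendsto_of_complete hc
    refine ⟨y, (hM y).2 fun i => ?_, ?_⟩
    · have h2 : Tendsto (fun j => φ i (E j x)) atTop (𝓝 (φ i y)) :=
        ((φ i).continuous.tendsto y).comp hy
      refine tendsto_nhds_unique h2 ?_
      refine tendsto_const_nhds.congr' ?_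
      filter_upwards [eventually_gt_atTop i] with j hj
      exact (kill hE hφ hj x).symm
    · exact mem_closure_of_tendsto (tendsto_const_nhds.sub hy)
        (Eventually.of_forall fun j => hspanz j x)
  refine ⟨M, hMcl, ?_, ?_⟩
  · -- separability
    let q : X → X ⧸ M := fun x => Submodule.Quotient.mk x
    have hqc : Continuous q := M.continuous_mkQ
    have hqs : Function.Surjective q := Submodule.Quotient.mk_surjective M
    let V : Submodule 𝕜 (X ⧸ M) := Submodule.span 𝕜 (range fun j => q (z j))
    have hVz : ∀ x ∈ Submodule.span 𝕜 (range z), q x ∈ V := by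
      intro x hx
      induction hx using Submodule.span_induction with
      | mem x hx =>
        obtain ⟨j, rfl⟩ := hx
        exact Submodule.subset_span ⟨j, rfl⟩
      | zero => exact V.zero_mem
      | add x y _ _ hx hy => exact V.add_mem hx hy
      | smul c x _ hx => exact V.smul_mem c hx
    have hVC : ∀ x ∈ C, q x ∈ V.topologicalClosure := by
      intro x hx
      obtain ⟨y, hy, hxy⟩ := hdec x hx
      have h3 : q x = q (x - y) := by
        have : q y = 0 := (Submodule.Quotient.mk_eq_zero M).2 hy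
        change q x = q x - q y
        rw [this, sub_zero]
      rw [h3]
      have h4 : q (x - y) ∈ closure (V : Set (X ⧸ M)) :=
        map_mem_closure hqc hxy hVz
      exact h4
    have hVS : ∀ x ∈ Submodule.span 𝕜 C, q x ∈ V.topologicalClosure := by
      intro x hx
      induction hx using Submodule.span_induction with
      | mem x hx => exact hVC x hx
      | zero => exact Submodule.zero_mem _
      | add x y _ _ hx hy => exact Submodule.add_mem _ hx hy
      | smul c x _ hx => exact Submodule.smul_mem _ c hx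
    have hVtop : ∀ v : X ⧸ M, v ∈ closure (V : Set (X ⧸ M)) := by
      intro v
      obtain ⟨x, rfl⟩ := hqs v
      have h5 : q x ∈ closure (V.topologicalClosure : Set (X ⧸ M)) :=
        map_mem_closure hqc (hdense x) hVS
      rwa [V.isClosed_topologicalClosure.closure_eq] at h5
    have hsepV : TopologicalSpace.IsSeparable (V : Set (X ⧸ M)) :=
      (countable_range _).isSeparable.span
    have hsep := hsepV.closure
    rw [show closure (V : Set (X ⧸ M)) = univ from eq_univ_of_forall hVtop] at hsep
    exact TopologicalSpace.isSeparable_univ_iff.1 hsep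
  · -- infinite dimension
    intro hfin
    have hli : LinearIndependent 𝕜 fun j => (Submodule.Quotient.mk (z j) : X ⧸ M) := by
      rw [linearIndependent_iff']
      intro s g hg i
      have hmem : ∑ j ∈ s, g j • z j ∈ M := by
        rw [← Submodule.Quotient.mk_eq_zero M, ← hg]
        simp only [← Submodule.mkQ_apply, map_sum, map_smul]
      have hval : ∀ k, ∑ j ∈ s, g j * φ k (z j) = 0 := by
        intro k
        have := (hM _).1 hmem k
        simpa [map_sum, map_smul] using this
      induction i using Nat.strong_induction_on with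
      | _ i ih =>
        intro his
        have h6 := hval i
        rw [Finset.sum_eq_single i] at h6
        · rwa [hφ i, mul_one] at h6
        · intro j hj hji
          rcases lt_or_gt_of_ne hji with h | h
          · rw [ih j h hj, zero_mul]
          · rw [hzk i j h, mul_zero]
        · intro h; exact absurd his h
    exact Module.Finite.not_linearIndependent_of_infinite (R := 𝕜) _ hli

/-- A family of bounded operators that is pointwise bounded on a dense set but not uniformly
bounded forces a separable infinite-dimensional quotient. -/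
theorem fam {ι : Type*} (S : ι → X →L[𝕜] X)
    (hdense : Dense {x : X | ∃ K : ℝ, ∀ i, ‖S i x‖ ≤ K})
    (hunb : ¬ ∃ K : ℝ, ∀ i, ‖S i‖ ≤ K) : HasSepQuot 𝕜 X := by
  refine core {x : X | ∀ i, ‖S i x‖ ≤ 1} ?_ ?_ ?_ ?_ ?_ ?_ (𝕜 := 𝕜)
  · simp only [ofPred_forall]
    exact isClosed_iInter fun i => isClosed_le (S i).continuous.norm continuous_const
  · intro x hx y hy a b ha hb hab i
    rw [map_add, map_smul, map_smul]
    calc ‖(a : 𝕜) • S i x + (b : 𝕜) • S i y‖ ≤ ‖(a : 𝕜) • S i x‖ + ‖(b : 𝕜) • S i y‖ :=
          norm_add_le _ _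
      _ = a * ‖S i x‖ + b * ‖S i y‖ := by
          rw [norm_smul, norm_smul, RCLike.norm_ofReal, RCLike.norm_ofReal, abs_of_nonneg ha,
            abs_of_nonneg hb]
      _ ≤ a * 1 + b * 1 := add_le_add (mul_le_mul_of_nonneg_left (hx i) ha)
          (mul_le_mul_of_nonneg_left (hy i) hb)
      _ = 1 := by rw [mul_one, mul_one, hab]
  · intro c hc x hx
    obtain ⟨y, hy, rfl⟩ := hx
    intro i
    simp only [map_smul, norm_smul]
    calc ‖c‖ * ‖S i y‖ ≤ 1 * 1 := mul_le_mul hc (hy i) (norm_nonneg _) zero_le_one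
      _ = 1 := one_mul 1
  · intro i; simp
  · refine hdense.mono ?_
    rintro x ⟨K, hK⟩
    have hc : (0 : ℝ) < (|K| + 1)⁻¹ := by positivity
    have hmem : (((|K| + 1)⁻¹ : ℝ) : 𝕜) • x ∈ {x : X | ∀ i, ‖S i x‖ ≤ 1} := by
      intro i
      rw [map_smul, norm_smul, RCLike.norm_ofReal, abs_of_pos hc, inv_mul_le_iff₀ (by positivity),
        mul_one]
      exact (hK i).trans ((le_abs_self K).trans (by linarith))
    have hx : x = (((|K| + 1 : ℝ)) : 𝕜) • ((((|K| + 1)⁻¹ : ℝ) : 𝕜) • x) := by
      rw [smul_smul, ← RCLike.ofReal_mul, mul_inv_cancel₀ (by positivity), RCLike.ofReal_one,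
        one_smul]
    rw [hx]
    exact Submodule.smul_mem _ _ (Submodule.subset_span hmem)
  · intro hn
    apply hunb
    obtain ⟨r, hr, hball⟩ := Metric.mem_nhds_iff.1 hn
    refine ⟨2 / r, fun i => ?_⟩
    refine ContinuousLinearMap.opNorm_le_bound _ (by positivity) fun x => ?_
    by_cases hx : x = 0
    · simp [hx]
    have hxn : 0 < ‖x‖ := norm_pos_iff.2 hx
    have hc : 0 < r / 2 * ‖x‖⁻¹ := by positivity
    have hmem : ((r / 2 * ‖x‖⁻¹ : ℝ) : 𝕜) • x ∈ Metric.ball (0 : X) r := by
      rw [mem_ball_zero_iff, norm_smul, RCLike.norm_ofReal, abs_of_pos hc, mul_assoc,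
        inv_mul_cancel₀ hxn.ne', mul_one]
      linarith
    have h7 := hball hmem i
    rw [map_smul, norm_smul, RCLike.norm_ofReal, abs_of_pos hc] at h7
    have h8 : ‖S i x‖ ≤ 1 / (r / 2 * ‖x‖⁻¹) := by
      rw [le_div_iff₀ hc, mul_comm]; exact h7
    calc ‖S i x‖ ≤ 1 / (r / 2 * ‖x‖⁻¹) := h8
      _ = 2 / r * ‖x‖ := by field_simp

end Vale.Agent.P129
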