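import Vale.Agent.P129.Defs

/-!
# P129, row R2: increasing sequences of proper closed subspaces with dense union
-/

namespace Vale.Agent.P129.Inc

open Filter Topology Set

variable {𝕜 X : Type*} [RCLike 𝕜] [NormedAddCommGroup X] [NormedSpace 𝕜 X]

/-- Hahn-Banach for a closed subspace -/
theorem exists_dual (E : Submodule 𝕜 X) (hE : IsClosed (E : Set X)) {y : X} (hy : y ∉ E) :
    ∃ f : X →L[𝕜] 𝕜, (∀ x ∈ E, f x = 0) ∧ f y = 1 := by
  haveI : IsClosed (E : Set X) := hE
  have h1 : (E.mkQ y : X ⧸ E) ≠ 0 := by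
    intro h
    exact hy ((Submodule.Quotient.mk_eq_zero E).1 h)
  obtain ⟨g, hg⟩ := SeparatingDual.exists_eq_one (R := 𝕜) h1
  refine ⟨g.comp E.mkQL, fun x hx => ?_, hg⟩
  show g (E.mkQ x) = 0
  have h2 : (E.mkQ x : X ⧸ E) = 0 := (Submodule.Quotient.mk_eq_zero E).2 hx
  rw [h2, map_zero]

/-- the subsequence -/
theorem exists_seq (E : ℕ → Submodule 𝕜 X) (hmono : Monotone E)
    (hcl : ∀ n, IsClosed (E n : Set X)) (hne : ∀ n, E n ≠ ⊤)
    (hd : (⨆ n, E n).topologicalClosure = ⊤) :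
    ∃ (φ : ℕ → ℕ) (y : ℕ → X), StrictMono φ ∧ ∀ k, y k ∈ E (φ (k + 1)) ∧ y k ∉ E (φ k) := by
  have h1 : ∀ n, ∃ m y, n < m ∧ y ∈ E m ∧ y ∉ E n := by
    intro n
    by_contra hcon
    push Not at hcon
    apply hne n
    have h2 : ∀ m, E m ≤ E n := by
      intro m y hy
      exact hcon (max m (n + 1)) y (lt_of_lt_of_le (Nat.lt_succ_self n) (le_max_right _ _))
        (hmono (le_max_left _ _) hy)
    rw [eq_top_iff, ← hd]
    exact Submodule.topologicalClosure_minimal _ (iSup_le h2) (hcl n)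
  choose next y h2 h3 h4 using h1
  have hsucc : ∀ k, next^[k + 1] 0 = next (next^[k] 0) := fun k =>
    Function.iterate_succ_apply' next k 0
  refine ⟨fun k => next^[k] 0, fun k => y (next^[k] 0), strictMono_nat_of_lt_succ fun k => ?_,
    fun k => ⟨?_, h4 _⟩⟩
  · show next^[k] 0 < next^[k + 1] 0
    rw [hsucc]
    exact h2 _
  · show y (next^[k] 0) ∈ E (next^[k + 1] 0)
    rw [hsucc]
    exact h3 _

theorem main (E : ℕ → Submodule 𝕜 X) (hmono : Monotone E)
    (hcl : ∀ n, IsClosed (E n : Set X)) (hne : ∀ n, E n ≠ ⊤)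
    (hd : (⨆ n, E n).topologicalClosure = ⊤) :
    ∃ M : Submodule 𝕜 X, IsClosed (M : Set X) ∧ ¬ FiniteDimensional 𝕜 (X ⧸ M) ∧
      ∃ y : ℕ → X, (M ⊔ Submodule.span 𝕜 (range y)).topologicalClosure = ⊤ := by
  obtain ⟨φ, y, hφ, hy⟩ := exists_seq E hmono hcl hne hd
  choose f hf0 hf1 using fun k => exists_dual (E (φ k)) (hcl _) (hy k).2
  have hfy : ∀ j k, k < j → f j (y k) = 0 := fun j k hkj =>
    hf0 j _ (hmono (hφ.monotone hkj) (hy k).1)
  let K : ℕ → Submodule 𝕜 X := fun m => ⨅ j : {j : ℕ // m ≤ j}, LinearMap.ker (f j.1 : X →ₗ[𝕜] 𝕜)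
  have hK : ∀ m x, x ∈ K m ↔ ∀ j, m ≤ j → f j x = 0 := by
    intro m x
    simp only [K, Submodule.mem_iInf, LinearMap.mem_ker, Subtype.forall]
    rfl
  have hKcl : ∀ m, IsClosed (K m : Set X) := by
    intro m
    have h1 : (K m : Set X) = ⋂ j : {j : ℕ // m ≤ j}, {x | f j.1 x = 0} := by
      ext x
      simp only [SetLike.mem_coe, hK, mem_iInter, Subtype.forall, mem_ofPred_eq]
    rw [h1]
    exact isClosed_iInter fun j => isClosed_eq (f j.1).continuous continuous_const
  have hKmono : Monotone K := by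
    intro m m' hm x hx
    rw [hK] at hx ⊢
    exact fun j hj => hx j (hm.trans hj)
  have hEK : ∀ m, E (φ m) ≤ K m := by
    intro m x hx
    rw [hK]
    exact fun j hj => hf0 j x (hmono (hφ.monotone hj) hx)
  have hyK : ∀ m, y m ∈ K (m + 1) := by
    intro m
    rw [hK]
    exact fun j hj => hfy j m hj
  have hKspan : ∀ m, K m ≤ K 0 ⊔ Submodule.span 𝕜 (range y) := by
    intro m
    induction m with
    | zero => exact le_sup_left
    | succ m ih =>
      intro x hx
      have h1 : x - f m x • y m ∈ K m := by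
        rw [hK] at hx ⊢
        intro j hj
        rw [map_sub, map_smul]
        rcases eq_or_lt_of_le hj with h | h
        · subst h
          rw [hf1, smul_eq_mul, mul_one, sub_self]
        · rw [hx j h, hfy j m h, smul_zero, sub_zero]
      have h2 : f m x • y m ∈ K 0 ⊔ Submodule.span 𝕜 (range y) :=
        Submodule.mem_sup_right (Submodule.smul_mem _ _ (Submodule.subset_span ⟨m, rfl⟩))
      have h3 := add_mem (ih h1) h2
      rwa [sub_add_cancel] at h3
  refine ⟨K 0, hKcl 0, ?_, y, ?_⟩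
  · intro hfin
    obtain ⟨n, hn⟩ := monotone_stabilizes_iff_noetherian.2
      (inferInstance : IsNoetherian 𝕜 (X ⧸ K 0))
      ⟨fun m => (K m).map (K 0).mkQ, fun m m' hm => Submodule.map_mono (hKmono hm)⟩
    have h1 : (K n).map (K 0).mkQ = (K (n + 1)).map (K 0).mkQ := hn (n + 1) (Nat.le_succ n)
    have h2 : (K 0).mkQ (y n) ∈ (K n).map (K 0).mkQ := by
      rw [h1]
      exact Submodule.mem_map_of_mem (hyK n)
    obtain ⟨z, hz, hzy⟩ := h2
    have h3 : z - y n ∈ K 0 := (Submodule.Quotient.eq (K 0)).1 hzy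
    have h4 := (hK 0 _).1 h3 n (Nat.zero_le n)
    rw [map_sub, (hK n z).1 hz n le_rfl, hf1, zero_sub, neg_eq_zero] at h4
    exact one_ne_zero h4
  · rw [eq_top_iff, ← hd]
    refine Submodule.topologicalClosure_mono (iSup_le fun n => ?_)
    exact ((hmono (hφ.id_le n)).trans (hEK n)).trans (hKspan n)

/-- separability of the quotient -/
theorem separable_of_span {M : Submodule 𝕜 X} (y : ℕ → X)
    (h : (M ⊔ Submodule.span 𝕜 (range y)).topologicalClosure = ⊤) :
    TopologicalSpace.SeparableSpace (X ⧸ M) := by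
  have h1 : Continuous (M.mkQ : X → X ⧸ M) := M.mkQL.continuous
  have h2 : Dense ((M ⊔ Submodule.span 𝕜 (range y) : Submodule 𝕜 X) : Set X) :=
    (Submodule.dense_iff_topologicalClosure_eq_top).2 h
  have h3 : DenseRange (M.mkQ : X → X ⧸ M) := (Submodule.mkQ_surjective M).denseRange
  have h4 := h3.dense_image h1 h2
  have h5 : (M.mkQ : X → X ⧸ M) '' ((M ⊔ Submodule.span 𝕜 (range y) : Submodule 𝕜 X) : Set X) ⊆
      (Submodule.span 𝕜 (range fun k => M.mkQ (y k)) : Set (X ⧸ M)) := by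
    rintro _ ⟨x, hx, rfl⟩
    obtain ⟨a, ha, b, hb, rfl⟩ := Submodule.mem_sup.1 hx
    rw [map_add]
    have h6 : M.mkQ a = 0 := (Submodule.Quotient.mk_eq_zero M).2 ha
    rw [h6, zero_add]
    have h7 := Submodule.mem_map_of_mem (f := M.mkQ) hb
    rw [Submodule.map_span, ← range_comp] at h7
    exact h7
  have h8 : TopologicalSpace.IsSeparable
      (Submodule.span 𝕜 (range fun k => M.mkQ (y k)) : Set (X ⧸ M)) :=
    (countable_range _).isSeparable.span
  have h9 : TopologicalSpace.IsSeparable (univ : Set (X ⧸ M)) := by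
    have h10 := h8.closure
    rwa [(h4.mono h5).closure_eq] at h10
  exact TopologicalSpace.isSeparable_univ_iff.1 h9

theorem hasSepQuot (E : ℕ → Submodule 𝕜 X) (hmono : Monotone E)
    (hcl : ∀ n, IsClosed (E n : Set X)) (hne : ∀ n, E n ≠ ⊤)
    (hd : (⨆ n, E n).topologicalClosure = ⊤) : HasSepQuot 𝕜 X := by
  obtain ⟨M, h1, h2, y, h3⟩ := main E hmono hcl hne hd
  exact ⟨M, h1, separable_of_span y h3, h2⟩

end Vale.Agent.P129.Inc
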