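import Vale.Agent.P129.Defs

/-! P129: the notions used in the statement of the hand-in. -/

namespace Vale.Agent.P129

open Filter Topology Set

section
variable {𝕜 X : Type*} [RCLike 𝕜] [NormedAddCommGroup X] [NormedSpace 𝕜 X]

/-- `T t`, `t ≥ 0`, is a strongly continuous one-parameter semigroup of bounded operators. -/
def IsC0Semigroup (T : ℝ → X →L[𝕜] X) : Prop :=
  T 0 = 1 ∧ (∀ s t : ℝ, 0 ≤ s → 0 ≤ t → T (s + t) = T s * T t) ∧
    ∀ x : X, ContinuousOn (fun t => T t x) (Ici 0)

/-- The Cesàro means `(1/n) ∑_{k<n} T^k`. -/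
noncomputable def cesaro (T : X →L[𝕜] X) (n : ℕ) : X →L[𝕜] X :=
  ((n : 𝕜)⁻¹) • ∑ k ∈ Finset.range n, T ^ k

/-- `T` is power bounded and its Cesàro means converge strongly to `P`. -/
def IsMeanErgodic (T P : X →L[𝕜] X) : Prop :=
  (∃ M : ℝ, ∀ n : ℕ, ‖T ^ n‖ ≤ M) ∧ ∀ x : X, Tendsto (fun n => cesaro T n x) atTop (𝓝 (P x))

/-- `T n → 1` strongly, and `T n * T m → T m` in norm (`n → ∞`) for every `m`. -/
def IsAsymptoticUnit (T : ℕ → X →L[𝕜] X) : Prop :=
  (∀ x, Tendsto (fun n => T n x) atTop (𝓝 x)) ∧ ∀ m, Tendsto (fun n => T n * T m) atTop (𝓝 (T m))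

variable (𝕜 X)

/-- Strong convergence implies norm convergence for the following objects on `X`: one-parameter
semigroups, Cesàro means of power bounded operators, asymptotic units. -/
def StrongIsNorm : Prop :=
  (∀ T : ℝ → X →L[𝕜] X, IsC0Semigroup T → ContinuousOn T (Ici 0)) ∧
    (∀ T P : X →L[𝕜] X, IsMeanErgodic T P → Tendsto (cesaro T) atTop (𝓝 P)) ∧
    ∀ T : ℕ → X →L[𝕜] X, IsAsymptoticUnit T → Tendsto T atTop (𝓝 1)

end

/-- For every sequence `T n` of bounded operators on `X` whose commutators have separable range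
(for instance a commuting sequence, or commuting modulo compact operators) there are scalars `l n`
and a closed subspace `Y` of infinite codimension such that all `T n` act on `X ⧸ Y` by the scalars
`l n`; `Y` is invariant under every bounded operator that commutes with the sequence, and every
bounded operator in the pointwise closed linear span of the sequence also acts on `X ⧸ Y` by a
scalar. -/
def EssCommutingActByScalars (X : Type*) [NormedAddCommGroup X] [NormedSpace ℂ X] : Prop :=
  ∀ T : ℕ → X →L[ℂ] X,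
    (∀ i j, TopologicalSpace.IsSeparable (Set.range (T i * T j - T j * T i))) →
    ∃ (Y : Submodule ℂ X) (l : ℕ → ℂ), IsClosed (Y : Set X) ∧ ¬ FiniteDimensional ℂ (X ⧸ Y) ∧
      (∀ n x, T n x - l n • x ∈ Y) ∧
      (∀ S : X →L[ℂ] X, (∀ n, S * T n = T n * S) → ∀ x ∈ Y, S x ∈ Y) ∧
      (∀ S : X →L[ℂ] X,
        (∀ x, S x ∈ (Submodule.span ℂ (Set.range fun n => T n x)).topologicalClosure) →
        ∃ c : ℂ, ∀ x, S x - c • x ∈ Y)

end Vale.Agent.P129
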